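import Vale.Agent.P243.Defs

open MeasureTheory

namespace Vale.Agent.P243

/-- Area of a region between two continuous curves over an interval. -/
theorem region_area (f g : ℝ → ℝ) (hf : Continuous f) (hg : Continuous g) (a b : ℝ) (hab : a ≤ b)
    (hfg : ∀ x ∈ Set.Ioo a b, f x ≤ g x) :
    (volume : Measure (ℝ × ℝ)) (regionBetween f g (Set.Ioo a b)) =
      ENNReal.ofReal (∫ x in a..b, (g x - f x)) := by
  rw [Measure.volume_eq_prod]
  rw [volume_regionBetween_eq_integral
    ((hf.integrableOn_Icc (a := a) (b := b)).mono_set Set.Ioo_subset_Icc_self)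
    ((hg.integrableOn_Icc (a := a) (b := b)).mono_set Set.Ioo_subset_Icc_self)
    measurableSet_Ioo hfg]
  rw [intervalIntegral.integral_of_le hab, integral_Ioc_eq_integral_Ioo]
  rfl

theorem lin_int (p q a b : ℝ) :
    ∫ x in a..b, (p + q * x) = (p * b + q * b ^ 2 / 2) - (p * a + q * a ^ 2 / 2) := by
  apply intervalIntegral.integral_eq_sub_of_hasDerivAt
    (f := fun x => p * x + q * x ^ 2 / 2)
  · intro x _
    have h1 : HasDerivAt (fun x : ℝ => p * x) (p * 1) x := (hasDerivAt_id' x).const_mul p
    have h2 : HasDerivAt (fun x : ℝ => q * x ^ 2 / 2) (q * (2 * x) / 2) x := by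
      have h3 : HasDerivAt (fun x : ℝ => x ^ 2) (2 * x) x := by
        simpa using hasDerivAt_pow 2 x
      exact (h3.const_mul q).div_const 2
    have h4 := h1.add h2
    have h5 : p * 1 + q * (2 * x) / 2 = p + q * x := by ring
    rw [h5] at h4
    exact h4
  · exact Continuous.intervalIntegrable (by fun_prop) _ _

/-- The open diamond of radius `r` around `(0, a)`. -/
theorem diamond_area (a r : ℝ) (hr : 0 < r) :
    (volume : Measure (ℝ × ℝ)) {q | |q.1| + |q.2 - a| < r} = ENNReal.ofReal (2 * r ^ 2) := by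
  have h1 : {q : ℝ × ℝ | |q.1| + |q.2 - a| < r} =
      regionBetween (fun t => a - (r - |t|)) (fun t => a + (r - |t|)) (Set.Ioo (-r) r) := by
    ext ⟨t, s⟩
    unfold regionBetween
    simp only [Set.mem_ofPred_eq, Set.mem_Ioo]
    constructor
    · intro h
      have h2 : |s - a| < r - |t| := by linarith
      have h3 : |t| < r := by linarith [abs_nonneg (s - a)]
      rw [abs_lt] at h2 h3
      refine ⟨h3, ?_, ?_⟩ <;> linarith [h2.1, h2.2]
    · rintro ⟨_, h2, h3⟩
      have : |s - a| < r - |t| := by
        rw [abs_lt]; constructor <;> linarith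
      linarith
  rw [h1, region_area _ _ (by fun_prop) (by fun_prop) _ _ (by linarith)]
  · congr 1
    have h2 : ∀ x : ℝ, (a + (r - |x|)) - (a - (r - |x|)) = 2 * (r - |x|) := fun x => by ring
    simp only [h2]
    have hc : Continuous (fun x : ℝ => 2 * (r - |x|)) := by fun_prop
    rw [← intervalIntegral.integral_add_adjacent_intervals (b := 0)
      (hc.intervalIntegrable _ _) (hc.intervalIntegrable _ _)]
    have h3 : ∫ x in (-r)..0, 2 * (r - |x|) = ∫ x in (-r)..0, (2 * r + 2 * x) := by
      apply intervalIntegral.integral_congr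
      intro x hx
      rw [Set.uIcc_of_le (by linarith)] at hx
      simp only
      rw [abs_of_nonpos hx.2]; ring
    have h4 : ∫ x in (0 : ℝ)..r, 2 * (r - |x|) = ∫ x in (0 : ℝ)..r, (2 * r + (-2) * x) := by
      apply intervalIntegral.integral_congr
      intro x hx
      rw [Set.uIcc_of_le (by linarith)] at hx
      simp only
      rw [abs_of_nonneg hx.1]; ring
    rw [h3, h4, lin_int, lin_int]
    ring
  · intro x hx
    have : |x| < r := abs_lt.mpr hx
    linarith

/-- The triangle swept by the upper edge. -/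
theorem tri_up (α c : ℝ) (hc : 0 ≤ c) :
    (volume : Measure (ℝ × ℝ)) (regionBetween (fun t => α * (t / c) - (1 - t / c))
      (fun t => α * (t / c) + (1 - t / c)) (Set.Ioo 0 c)) = ENNReal.ofReal c := by
  rcases hc.eq_or_lt with rfl | hc
  · simp [regionBetween]
  rw [region_area _ _ (by fun_prop) (by fun_prop) _ _ hc.le]
  · congr 1
    have h2 : ∀ x : ℝ, (α * (x / c) + (1 - x / c)) - (α * (x / c) - (1 - x / c)) =
        2 + (-2 / c) * x := fun x => by ring
    simp only [h2]
    rw [lin_int]
    field_simp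
    ring
  · intro x hx
    have : x / c < 1 := by rw [div_lt_one hc]; exact hx.2
    linarith

/-- The triangle swept by the lower edge. -/
theorem tri_down (α c : ℝ) (hc : 0 ≤ c) :
    (volume : Measure (ℝ × ℝ)) (regionBetween (fun t => α * (-t / c) - (1 - -t / c))
      (fun t => α * (-t / c) + (1 - -t / c)) (Set.Ioo (-c) 0)) = ENNReal.ofReal c := by
  rcases hc.eq_or_lt with rfl | hc
  · simp [regionBetween]
  rw [region_area _ _ (by fun_prop) (by fun_prop) _ _ (by linarith)]
  · congr 1
    have h2 : ∀ x : ℝ, (α * (-x / c) + (1 - -x / c)) - (α * (-x / c) - (1 - -x / c)) =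
        2 + (2 / c) * x := fun x => by ring
    simp only [h2]
    rw [lin_int]
    field_simp
    ring
  · intro x hx
    have : -x / c < 1 := by rw [div_lt_one hc]; linarith [hx.1]
    linarith

/-- The shadow of the tetrahedron in the horizontal directions. -/
theorem trap_area (h : ℝ) (h0 : 0 ≤ h) (h1 : h ≤ 1) :
    (volume : Measure (ℝ × ℝ)) (regionBetween (fun z => -(h + (1 - 2 * h) * z))
      (fun z => h + (1 - 2 * h) * z) (Set.Ioo 0 1)) = 1 := by
  rw [region_area _ _ (by fun_prop) (by fun_prop) _ _ zero_le_one]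
  · have h2 : ∀ x : ℝ, (h + (1 - 2 * h) * x) - (-(h + (1 - 2 * h) * x)) =
        2 * h + (2 * (1 - 2 * h)) * x := fun x => by ring
    simp only [h2]
    rw [lin_int]
    rw [← ENNReal.ofReal_one]
    congr 1
    ring
  · intro x hx
    nlinarith [hx.1, hx.2, mul_nonneg h0 (sub_nonneg.mpr hx.2.le),
      mul_nonneg (sub_nonneg.mpr h1) hx.1.le]

end Vale.Agent.P243
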