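import Vale.Agent.P243.Defs5

open MeasureTheory

namespace Vale.Agent.P243

theorem shadow_up (α β : ℝ) (hp : 0 < 1 - β) :
    (volume (regionBetween (fun t => α * (t / (1 - β)) - (1 - t / (1 - β)))
      (fun t => α * (t / (1 - β)) + (1 - t / (1 - β))) (Set.Ioo 0 (1 - β))) : ENNReal)
      ≤ volume (LA α β '' tetra) := by
  refine measure_mono ?_
  rintro ⟨t, s⟩ ⟨⟨a, b⟩, c, d⟩
  simp only at a b c d
  have ht0 : 0 < t / (1 - β) := div_pos a hp
  have ht1 : t / (1 - β) < 1 := by rw [div_lt_one hp]; exact b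
  have ht : t / (1 - β) * (1 - β) = t := div_mul_cancel₀ t hp.ne'
  set z := t / (1 - β)
  refine ⟨pt (s - α * z) z z, ⟨?_, ?_, ?_, ?_⟩, ?_⟩
  · simp only [pt_2]; exact ht0.le
  · simp only [pt_2]; exact ht1.le
  · simp only [pt_0, pt_2]
    rw [abs_le]; constructor <;> linarith
  · simp only [pt_1, pt_2]
    rw [abs_of_pos ht0]
  · rw [LA_apply]
    simp only [pt_0, pt_1, pt_2, Prod.mk.injEq]
    constructor
    · rw [← ht]; ring
    · ring

theorem shadow_down (α β : ℝ) (hp : 0 < 1 + β) :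
    (volume (regionBetween (fun t => α * (-t / (1 + β)) - (1 - -t / (1 + β)))
      (fun t => α * (-t / (1 + β)) + (1 - -t / (1 + β))) (Set.Ioo (-(1 + β)) 0)) : ENNReal)
      ≤ volume (LA α β '' tetra) := by
  refine measure_mono ?_
  rintro ⟨t, s⟩ ⟨⟨a, b⟩, c, d⟩
  simp only at a b c d
  have ht0 : 0 < -t / (1 + β) := div_pos (by linarith) hp
  have ht1 : -t / (1 + β) < 1 := by rw [div_lt_one hp]; linarith
  have ht : -t / (1 + β) * (1 + β) = -t := div_mul_cancel₀ (-t) hp.ne'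
  set z := -t / (1 + β)
  refine ⟨pt (s - α * z) (-z) z, ⟨?_, ?_, ?_, ?_⟩, ?_⟩
  · simp only [pt_2]; exact ht0.le
  · simp only [pt_2]; exact ht1.le
  · simp only [pt_0, pt_2]
    rw [abs_le]; constructor <;> linarith
  · simp only [pt_1, pt_2]
    rw [abs_neg, abs_of_pos ht0]
  · rw [LA_apply]
    simp only [pt_0, pt_1, pt_2, Prod.mk.injEq]
    constructor
    · linarith
    · ring

theorem shadowA_ge_all (α β : ℝ) : 2 ≤ (volume (LA α β '' tetra)).toReal := by
  have hfin : volume (LA α β '' tetra) ≠ ⊤ :=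
    ((tetra_compact.image (continuous_LA α β)).measure_lt_top).ne
  rcases lt_or_ge 1 β with h | h
  · have h1 := shadow_down α β (by linarith)
    rw [tri_down α (1 + β) (by linarith)] at h1
    have h2 := ENNReal.toReal_mono hfin h1
    rw [ENNReal.toReal_ofReal (by linarith)] at h2
    linarith
  · rcases lt_or_ge β (-1) with h' | h'
    · have h1 := shadow_up α β (by linarith)
      rw [tri_up α (1 - β) (by linarith)] at h1
      have h2 := ENNReal.toReal_mono hfin h1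
      rw [ENNReal.toReal_ofReal (by linarith)] at h2
      linarith
    · exact shadowA_ge α β h' h

/-- The change of variables `(t, u) ↦ (t + u, u - t)`. -/
noncomputable def rotT : ℝ × ℝ →ₗ[ℝ] ℝ × ℝ :=
  Matrix.toLin (Module.Basis.finTwoProd ℝ) (Module.Basis.finTwoProd ℝ) !![1, 1; -1, 1]

theorem rotT_apply (q : ℝ × ℝ) : rotT q = (q.1 + q.2, q.2 - q.1) := by
  unfold rotT
  rw [Matrix.toLin_finTwoProd_apply]
  ext <;> simp
  ring

theorem rotT_det : LinearMap.det rotT = 2 := by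
  unfold rotT
  rw [LinearMap.det_toLin, Matrix.det_fin_two_of]
  norm_num

theorem blade_area (α a b : ℝ) (ha : 0 ≤ a) :
    (volume : Measure (ℝ × ℝ)) {q | |(q.2 - α) + q.1| ≤ a ∧ |(q.2 - α) - q.1| ≤ b} =
      ENNReal.ofReal (2 * (a * b)) := by
  have h1 : {q : ℝ × ℝ | |(q.2 - α) + q.1| ≤ a ∧ |(q.2 - α) - q.1| ≤ b} =
      rotT ⁻¹' (Set.Icc (α - a) (α + a) ×ˢ Set.Icc (α - b) (α + b)) := by
    ext q
    simp only [Set.mem_ofPred_eq, Set.mem_preimage, rotT_apply, Set.mem_prod, Set.mem_Icc, abs_le]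
    constructor
    · rintro ⟨⟨h1, h2⟩, h3, h4⟩
      refine ⟨⟨?_, ?_⟩, ?_, ?_⟩ <;> linarith
    · rintro ⟨⟨h1, h2⟩, h3, h4⟩
      refine ⟨⟨?_, ?_⟩, ?_, ?_⟩ <;> linarith
  rw [h1, Measure.addHaar_preimage_linearMap _ (by rw [rotT_det]; norm_num), rotT_det,
    Measure.volume_eq_prod, Measure.prod_prod, Real.volume_Icc, Real.volume_Icc,
    ← ENNReal.ofReal_mul (by linarith), ← ENNReal.ofReal_mul (by positivity)]
  congr 1
  rw [abs_of_pos (by norm_num)]
  ring

theorem bladeA (s α β a b : ℝ) (hs : s = 1 ∨ s = -1) (ha : 0 ≤ a) (hb : 0 ≤ b) :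
    ∃ c : Cyl, c.toSet = {p | |(s * p 0 + α * p 2 - α) + (s * p 1 - β * p 2)| ≤ a ∧
      |(s * p 0 + α * p 2 - α) - (s * p 1 - β * p 2)| ≤ b} ∧ ratio c tetra ≤ a * b := by
  have hS : MeasurableSet {q : ℝ × ℝ | |(q.2 - s * α) + q.1| ≤ a ∧ |(q.2 - s * α) - q.1| ≤ b} := by
    have c1 : IsClosed {q : ℝ × ℝ | |(q.2 - s * α) + q.1| ≤ a} :=
      isClosed_le (by fun_prop) continuous_const
    have c2 : IsClosed {q : ℝ × ℝ | |(q.2 - s * α) - q.1| ≤ b} :=
      isClosed_le (by fun_prop) continuous_const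
    exact (c1.inter c2).measurableSet
  obtain ⟨c, hc, hratio⟩ := exists_cyl (pt (-(s * α)) (s * β) 1)
    (fun h => by
      have := congrArg (fun p : E3 => p 2) h
      simp at this)
    (LA (s * α) (s * β))
    (fun q => ⟨pt q.2 q.1 0, by rw [LA_apply]; simp⟩)
    (by rw [LA_apply]; simp)
    {q | |(q.2 - s * α) + q.1| ≤ a ∧ |(q.2 - s * α) - q.1| ≤ b} hS
    (by rw [blade_area (s * α) a b ha]; exact ENNReal.ofReal_lt_top)
  refine ⟨c, ?_, ?_⟩
  · rw [hc]
    ext p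
    simp only [Set.mem_ofPred_eq, LA_apply]
    rcases hs with rfl | rfl
    · rw [show (p 0 + 1 * α * p 2 - 1 * α + (p 1 - 1 * β * p 2) : ℝ)
        = (1 * p 0 + α * p 2 - α) + (1 * p 1 - β * p 2) by ring,
        show (p 0 + 1 * α * p 2 - 1 * α - (p 1 - 1 * β * p 2) : ℝ)
        = (1 * p 0 + α * p 2 - α) - (1 * p 1 - β * p 2) by ring]
    · rw [show (p 0 + -1 * α * p 2 - -1 * α + (p 1 - -1 * β * p 2) : ℝ)
        = -((-1 * p 0 + α * p 2 - α) + (-1 * p 1 - β * p 2)) by ring,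
        show (p 0 + -1 * α * p 2 - -1 * α - (p 1 - -1 * β * p 2) : ℝ)
        = -((-1 * p 0 + α * p 2 - α) - (-1 * p 1 - β * p 2)) by ring, abs_neg, abs_neg]
  · have hnn : 0 ≤ a * b := mul_nonneg ha hb
    rw [hratio tetra, blade_area (s * α) a b ha, ENNReal.toReal_ofReal (by linarith)]
    have hs' := shadowA_ge_all (s * α) (s * β)
    rw [div_le_iff₀ (by linarith)]
    nlinarith

end Vale.Agent.P243
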