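import Vale.Agent.P243.Defs

open MeasureTheory

namespace Vale.Agent.P243

/-- The tetrahedron with vertices `(±1, 0, 0)` and `(0, ±1, 1)`. -/
def tetra : Set E3 := {p | 0 ≤ p 2 ∧ p 2 ≤ 1 ∧ |p 0| ≤ 1 - p 2 ∧ |p 1| ≤ p 2}

theorem continuous_coord (i : Fin 3) : Continuous (fun p : E3 => p i) :=
  (EuclideanSpace.proj i : E3 →L[ℝ] ℝ).continuous

theorem tetra_closed : IsClosed tetra := by
  have h0 := continuous_coord 0
  have h1 := continuous_coord 1
  have h2 := continuous_coord 2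
  have : tetra = {p : E3 | 0 ≤ p 2} ∩ ({p : E3 | p 2 ≤ 1} ∩
      ({p : E3 | |p 0| ≤ 1 - p 2} ∩ {p : E3 | |p 1| ≤ p 2})) := by
    ext p; rfl
  rw [this]
  refine (isClosed_le continuous_const h2).inter ((isClosed_le h2 continuous_const).inter
    ((isClosed_le h0.abs (continuous_const.sub h2)).inter (isClosed_le h1.abs h2)))

theorem tetra_compact : IsCompact tetra := by
  refine Metric.isCompact_of_isClosed_isBounded tetra_closed ?_
  refine (Metric.isBounded_closedBall (x := (0 : E3)) (r := 2)).subset ?_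
  intro p hp
  obtain ⟨h1, h2, h3, h4⟩ := hp
  rw [mem_closedBall_zero_iff, EuclideanSpace.norm_eq]
  apply Real.sqrt_le_iff.mpr
  refine ⟨by norm_num, ?_⟩
  simp only [Fin.sum_univ_three, Real.norm_eq_abs, sq_abs]
  have a0 : (p 0) ^ 2 ≤ 1 := by
    rw [← sq_abs]
    nlinarith [abs_nonneg (p 0)]
  have a1 : (p 1) ^ 2 ≤ 1 := by
    rw [← sq_abs]
    nlinarith [abs_nonneg (p 1)]
  have a2 : (p 2) ^ 2 ≤ 1 := by nlinarith
  linarith

theorem tetra_convex : Convex ℝ tetra := by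
  intro p hp q hq a b ha hb hab
  obtain ⟨p1, p2, p3, p4⟩ := hp
  obtain ⟨q1, q2, q3, q4⟩ := hq
  have e : ∀ i, (a • p + b • q) i = a * p i + b * q i := fun i => by simp
  refine ⟨?_, ?_, ?_, ?_⟩
  · rw [e]; positivity
  · rw [e]; nlinarith
  · rw [e, e, abs_le]
    rw [abs_le] at p3 q3
    constructor <;> nlinarith
  · rw [e, e, abs_le]
    rw [abs_le] at p4 q4
    constructor <;> nlinarith

theorem tetra_interior : (interior tetra).Nonempty := by
  have h0 := continuous_coord 0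
  have h1 := continuous_coord 1
  have h2 := continuous_coord 2
  refine ⟨WithLp.toLp 2 ![0, 0, 1 / 2], ?_⟩
  rw [mem_interior]
  refine ⟨{p : E3 | 0 < p 2} ∩ ({p : E3 | p 2 < 1} ∩
      ({p : E3 | |p 0| < 1 - p 2} ∩ {p : E3 | |p 1| < p 2})), ?_, ?_, ?_⟩
  · rintro p ⟨a, b, c, d⟩
    exact ⟨le_of_lt a, le_of_lt b, le_of_lt c, le_of_lt d⟩
  · exact (isOpen_lt continuous_const h2).inter ((isOpen_lt h2 continuous_const).inter
      ((isOpen_lt h0.abs (continuous_const.sub h2)).inter (isOpen_lt h1.abs h2)))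
  · refine ⟨?_, ?_, ?_, ?_⟩ <;> simp <;> norm_num

theorem tetra_body : IsConvexBody tetra := ⟨tetra_compact, tetra_convex, tetra_interior⟩

end Vale.Agent.P243
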