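import Mathlib

namespace Vale.Agent.P243

/-- The index set of the tubes on one side. -/
abbrev Tri (n : ℕ) : Type := Σ s : Fin (2 * n + 1), Fin (2 * (s : ℕ) + 1)

theorem card_tri (n : ℕ) : Fintype.card (Tri n) = (2 * n + 1) ^ 2 := by
  rw [Fintype.card_sigma]
  simp only [Fintype.card_fin]
  rw [Fin.sum_univ_eq_sum_range (fun s => 2 * s + 1) (2 * n + 1)]
  have h : ∀ m : ℕ, ∑ i ∈ Finset.range m, (2 * i + 1) = m ^ 2 := by
    intro m
    induction m with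
    | zero => simp
    | succ m ih => rw [Finset.sum_range_succ, ih]; ring
  exact h _

theorem sum_slab (n m : ℕ) :
    ∑ k ∈ Finset.range m, ((k : ℝ) * (n - k)) =
      n * (m * (m - 1)) / 2 - (m - 1) * m * (2 * m - 1) / 6 := by
  induction m with
  | zero => simp
  | succ m ih => rw [Finset.sum_range_succ, ih]; push_cast; ring

theorem slab_total (n : ℕ) (hn : 0 < n) :
    ∑ k : Fin n, ((((k : ℕ) : ℝ) + 1) / n - (k : ℕ) / n) *
      (2 * (2 / 3 * (((k : ℕ) : ℝ) / n * (1 - (k : ℕ) / n)) + (5 / 3) / n)) ≤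
      2 / 9 + (10 / 3) / n := by
  have hn' : (0 : ℝ) < n := by exact_mod_cast hn
  rw [Fin.sum_univ_eq_sum_range (fun k : ℕ => (((k : ℝ) + 1) / n - k / n) *
      (2 * (2 / 3 * ((k : ℝ) / n * (1 - k / n)) + (5 / 3) / n))) n]
  have h1 : ∀ k ∈ Finset.range n, (((k : ℝ) + 1) / n - k / n) *
      (2 * (2 / 3 * ((k : ℝ) / n * (1 - k / n)) + (5 / 3) / n)) =
      (4 / 3) / n ^ 3 * ((k : ℝ) * (n - k)) + (10 / 3) / n ^ 2 := by
    intro k _
    field_simp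
    ring
  rw [Finset.sum_congr rfl h1, Finset.sum_add_distrib, ← Finset.mul_sum, sum_slab,
    Finset.sum_const, Finset.card_range, nsmul_eq_mul]
  have h2 : (4 / 3) / (n : ℝ) ^ 3 * (n * (n * (n - 1)) / 2 - (n - 1) * n * (2 * n - 1) / 6) +
      n * ((10 / 3) / (n : ℝ) ^ 2) = 2 / 9 + (10 / 3) / n - (2 / 9) / n ^ 2 := by
    field_simp
    ring
  rw [h2]
  have : 0 ≤ (2 / 9) / (n : ℝ) ^ 2 := by positivity
  linarith

theorem side_total (n : ℕ) (hn : 0 < n) :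
    (2 * (2 * (n : ℝ) + 1) ^ 2) * ((1 + 1 / n) / (6 * n)) ^ 2 ≤ 2 / 9 + 2 / n := by
  have hn' : (1 : ℝ) ≤ n := by exact_mod_cast hn
  have hn0 : (0 : ℝ) < n := by linarith
  set t : ℝ := 1 / n with ht
  have ht0 : 0 < t := by positivity
  have ht1 : t ≤ 1 := by rw [ht, div_le_one hn0]; exact hn'
  have h1 : (2 * (2 * (n : ℝ) + 1) ^ 2) * ((1 + t) / (6 * n)) ^ 2 =
      (1 / 18) * ((2 + t) * (1 + t)) ^ 2 := by
    rw [ht]; field_simp; ring
  have h2 : 2 / (n : ℝ) = 2 * t := by rw [ht]; ring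
  rw [h1, h2]
  have h3 : (2 + t) * (1 + t) ≤ 2 + 4 * t := by nlinarith
  have h4 : ((2 + t) * (1 + t)) ^ 2 ≤ (2 + 4 * t) ^ 2 := pow_le_pow_left₀ (by positivity) h3 2
  nlinarith

end Vale.Agent.P243
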