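import Mathlib

namespace Vale.Agent.P243

/-- Nearby lattice point with even coordinate sum. -/
theorem lattice_even (U V z : ℝ) (n : ℕ) (hU : 0 ≤ U) (hV : 0 ≤ V) (hz0 : 0 ≤ z) (hz1 : z ≤ 1)
    (hUV : U + V < 4 * n) :
    ∃ P Q s : ℕ, P + Q = 2 * s ∧ s ≤ 2 * n ∧
      (1 - z) * |(P : ℝ) - U| + z * |(Q : ℝ) - V| ≤ 1 / 2 := by
  have ha0 := Nat.floor_le hU
  have ha1 := Nat.lt_floor_add_one U
  have hb0 := Nat.floor_le hV
  have hb1 := Nat.lt_floor_add_one V
  set P0 := ⌊U⌋₊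
  set Q0 := ⌊V⌋₊
  have hlt : P0 + Q0 < 4 * n := by
    have : ((P0 + Q0 : ℕ) : ℝ) < ((4 * n : ℕ) : ℝ) := by push_cast; linarith
    exact_mod_cast this
  have e1 : |(P0 : ℝ) - U| = U - P0 := by rw [abs_of_nonpos (by linarith)]; ring
  have e2 : |((P0 + 1 : ℕ) : ℝ) - U| = 1 - (U - P0) := by
    push_cast; rw [abs_of_nonneg (by linarith)]; ring
  have e3 : |(Q0 : ℝ) - V| = V - Q0 := by rw [abs_of_nonpos (by linarith)]; ring
  have e4 : |((Q0 + 1 : ℕ) : ℝ) - V| = 1 - (V - Q0) := by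
    push_cast; rw [abs_of_nonneg (by linarith)]; ring
  rcases Nat.even_or_odd (P0 + Q0) with hev | hod
  · obtain ⟨s, hs⟩ := hev
    by_cases hcase : (1 - z) * (U - P0) + z * (V - Q0) ≤ 1 / 2
    · exact ⟨P0, Q0, s, by omega, by omega, by rw [e1, e3]; exact hcase⟩
    · refine ⟨P0 + 1, Q0 + 1, s + 1, by omega, by omega, ?_⟩
      rw [e2, e4]
      push Not at hcase
      nlinarith
  · obtain ⟨s, hs⟩ := hod
    by_cases hcase : (1 - z) * (1 - (U - P0)) + z * (V - Q0) ≤ 1 / 2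
    · exact ⟨P0 + 1, Q0, s + 1, by omega, by omega, by rw [e2, e3]; exact hcase⟩
    · refine ⟨P0, Q0 + 1, s + 1, by omega, by omega, ?_⟩
      rw [e1, e4]
      push Not at hcase
      nlinarith

/-- The direction of a thin tube in terms of the lattice point. -/
noncomputable def al (n P : ℕ) : ℝ := (3 * n - P) / (3 * n)

/-- The direction of a thin tube in terms of the lattice point. -/
noncomputable def be (n Q : ℕ) : ℝ := (Q - 3 * n) / (3 * n)

theorem be_mem (n Q : ℕ) (hn : 0 < n) (hQ : Q ≤ 4 * n) : -1 ≤ be n Q ∧ be n Q ≤ 1 := by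
  have hn' : (0 : ℝ) < n := by exact_mod_cast hn
  have hQ' : (Q : ℝ) ≤ 4 * n := by exact_mod_cast hQ
  have hQ0 : (0 : ℝ) ≤ Q := Nat.cast_nonneg Q
  unfold be
  constructor
  · rw [le_div_iff₀ (by positivity)]; linarith
  · rw [div_le_iff₀ (by positivity)]; linarith

/-- The points in the outer region lie in a thin tube (positive side). -/
theorem cover_pos (x y z : ℝ) (n : ℕ) (hn : 0 < n) (hz0 : 0 ≤ z) (hz1 : z ≤ 1)
    (hx : |x| ≤ 1 - z) (hy : |y| ≤ z)
    (h : (2 / 3) * (z * (1 - z)) < z * x - (1 - z) * y) :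
    ∃ P Q s : ℕ, P + Q = 2 * s ∧ s ≤ 2 * n ∧
      |y - be n Q * z| + |x + al n P * z - al n P| ≤ 1 / (6 * n) := by
  have hn' : (0 : ℝ) < n := by exact_mod_cast hn
  rw [abs_le] at hx hy
  have hz0' : 0 < z := by
    rcases hz0.eq_or_lt with h0 | h0
    · exfalso
      rw [← h0] at h hy
      nlinarith [hy.1, hy.2]
    · exact h0
  have hz1' : z < 1 := by
    rcases hz1.eq_or_lt with h0 | h0
    · exfalso
      rw [h0] at h hx
      nlinarith [hx.1, hx.2]
    · exact h0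
  have hw : 0 < 1 - z := by linarith
  set X := x / (1 - z) with hX
  set Y := y / z with hY
  have hXe : x = X * (1 - z) := (div_mul_cancel₀ x hw.ne').symm
  have hYe : y = Y * z := (div_mul_cancel₀ y hz0'.ne').symm
  have hX1 : X ≤ 1 := by rw [hX, div_le_one hw]; exact hx.2
  have hY1 : -1 ≤ Y := by rw [hY, le_div_iff₀ hz0']; linarith [hy.1]
  have hXY : 2 / 3 < X - Y := by
    rw [hXe, hYe] at h
    have hp : 0 < z * (1 - z) := mul_pos hz0' hw
    have : (2 / 3) * (z * (1 - z)) < (X - Y) * (z * (1 - z)) := by linarith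
    exact lt_of_mul_lt_mul_right this hp.le
  obtain ⟨P, Q, s, h1, h2, h3⟩ := lattice_even (3 * n * (1 - X)) (3 * n * (1 + Y)) z n
    (mul_nonneg (by positivity) (by linarith)) (mul_nonneg (by positivity) (by linarith))
    hz0 hz1 (by nlinarith)
  refine ⟨P, Q, s, h1, h2, ?_⟩
  have e1 : x + al n P * z - al n P = (1 - z) * ((P - 3 * n * (1 - X)) / (3 * n)) := by
    rw [hXe]; unfold al; field_simp; ring
  have e2 : y - be n Q * z = -(z * ((Q - 3 * n * (1 + Y)) / (3 * n))) := by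
    rw [hYe]; unfold be; field_simp; ring
  rw [e1, e2, abs_neg, abs_mul, abs_mul, abs_of_pos hw, abs_of_pos hz0', abs_div, abs_div,
    abs_of_pos (show (0 : ℝ) < 3 * n by positivity)]
  have e3 : z * (|(Q : ℝ) - 3 * n * (1 + Y)| / (3 * n)) + (1 - z) * (|(P : ℝ) - 3 * n * (1 - X)| / (3 * n))
      = ((1 - z) * |(P : ℝ) - 3 * n * (1 - X)| + z * |(Q : ℝ) - 3 * n * (1 + Y)|) / (3 * n) := by
    ring
  rw [e3, div_le_div_iff₀ (by positivity) (by positivity)]
  nlinarith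

/-- The points in the inner region lie in a horizontal slab tube. -/
theorem cover_inner (x y z h N W : ℝ) (hN : 0 < N) (h0 : 0 ≤ h) (h1 : h ≤ 1) (hz0 : 0 ≤ z)
    (hz1 : z ≤ 1) (hx : |x| ≤ 1 - z) (hy : |y| ≤ z) (hzh : |z - h| ≤ 1 / N)
    (hW : W = 2 / 3 * (h * (1 - h)) + (5 / 3) / N)
    (hin : |z * x - (1 - z) * y| ≤ (2 / 3) * (z * (1 - z))) :
    |(1 - h) * y - h * x| ≤ W := by
  have e1 : (1 - h) * y - h * x = -(z * x - (1 - z) * y) + (z - h) * (x + y) := by ring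
  have e2 : |x + y| ≤ 1 := by
    calc |x + y| ≤ |x| + |y| := abs_add_le x y
      _ ≤ 1 := by linarith
  have e3 : |(z - h) * (x + y)| ≤ 1 / N := by
    rw [abs_mul]
    calc |z - h| * |x + y| ≤ |z - h| * 1 := mul_le_mul_of_nonneg_left e2 (abs_nonneg _)
      _ ≤ 1 / N := by rw [mul_one]; exact hzh
  have e4 : z * (1 - z) ≤ h * (1 - h) + 1 / N := by
    have : z * (1 - z) - h * (1 - h) = (z - h) * (1 - z - h) := by ring
    have h5 : |(z - h) * (1 - z - h)| ≤ 1 / N := by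
      rw [abs_mul]
      have h6 : |1 - z - h| ≤ 1 := by rw [abs_le]; constructor <;> linarith
      calc |z - h| * |1 - z - h| ≤ |z - h| * 1 := mul_le_mul_of_nonneg_left h6 (abs_nonneg _)
        _ ≤ 1 / N := by rw [mul_one]; exact hzh
    have := (abs_le.mp h5).2
    linarith
  rw [e1]
  calc |-(z * x - (1 - z) * y) + (z - h) * (x + y)|
      ≤ |-(z * x - (1 - z) * y)| + |(z - h) * (x + y)| := abs_add_le _ _
    _ ≤ (2 / 3) * (z * (1 - z)) + 1 / N := by rw [abs_neg]; linarith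
    _ ≤ (2 / 3) * (h * (1 - h) + 1 / N) + 1 / N := by linarith
    _ = W := by rw [hW]; ring

end Vale.Agent.P243
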