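import Vale.Agent.P243.Defs5

open MeasureTheory

namespace Vale.Agent.P243

theorem cover_blade (n j : ℕ) (hn : 0 < n) (hj : j < 2 * n) (z X Y : ℝ) (hz0 : 0 ≤ z)
    (hz1 : z ≤ 1) (hX : -1 ≤ X) (hY : Y ≤ 1) (hk1 : (j : ℝ) / n ≤ Y - X)
    (hk2 : Y - X ≤ ((j : ℝ) + 1) / n)
    (hA : 2 * (z * (1 - z)) * |Y - X - kc n j| ≤ rr n j / (4 * n)) :
    ∃ i : ℕ, i < n * (2 * n + 2 - j) + 1 ∧
      |((1 - z) * X + al5 n i * z - al5 n i) + (z * Y - (al5 n i + kc n j) * z)| ≤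
        1 / (2 * n ^ 2) ∧
      |((1 - z) * X + al5 n i * z - al5 n i) - (z * Y - (al5 n i + kc n j) * z)| ≤
        rr n j / (4 * n) + 1 / (2 * n ^ 2) := by
  have hnR : (1:ℝ) ≤ n := by exact_mod_cast hn
  have hn0 : (0:ℝ) < n := by linarith
  have hkc : kc n j = j / n + 1 / (2 * n) := by unfold kc; field_simp
  have he : (0:ℝ) < 1 / (2 * n) := by positivity
  obtain ⟨d, hd⟩ : ∃ d, d = Y - X - kc n j := ⟨_, rfl⟩
  obtain ⟨T, hT⟩ : ∃ T, T = X + z * d := ⟨_, rfl⟩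
  have hT' : T = (1 - z) * X + z * (Y - kc n j) := by rw [hT, hd]; ring
  -- bounds on T
  have hTlo : -1 - 1 / (2 * n) ≤ T := by
    have h1 : -1 - 1 / (2 * (n:ℝ)) ≤ X := by linarith
    have h2 : -1 - 1 / (2 * (n:ℝ)) ≤ Y - kc n j := by rw [hkc]; linarith
    rw [hT']
    nlinarith [mul_nonneg (sub_nonneg.2 hz1) (sub_nonneg.2 h1), mul_nonneg hz0 (sub_nonneg.2 h2)]
  have hThi : T ≤ 1 - j / n := by
    have h1 : X ≤ 1 - j / n := by linarith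
    have h2 : Y - kc n j ≤ 1 - j / n := by rw [hkc]; linarith
    rw [hT']
    nlinarith [mul_nonneg (sub_nonneg.2 hz1) (sub_nonneg.2 h1), mul_nonneg hz0 (sub_nonneg.2 h2)]
  obtain ⟨r, hr⟩ : ∃ r : ℤ, r = round ((n:ℝ) ^ 2 * T) := ⟨_, rfl⟩
  have hr1 : |(n:ℝ) ^ 2 * T - r| ≤ 1 / 2 := by rw [hr]; exact abs_sub_round _
  obtain ⟨hr2, hr3⟩ := abs_le.1 hr1
  have hlo2 : -(n:ℝ) ^ 2 - n / 2 ≤ (n:ℝ) ^ 2 * T := by
    have h := mul_le_mul_of_nonneg_left hTlo (by positivity : (0:ℝ) ≤ (n:ℝ) ^ 2)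
    have e : (n:ℝ) ^ 2 * (-1 - 1 / (2 * n)) = -(n:ℝ) ^ 2 - n / 2 := by field_simp
    linarith
  have hhi2 : (n:ℝ) ^ 2 * T ≤ (n:ℝ) ^ 2 - n * j := by
    have h := mul_le_mul_of_nonneg_left hThi (by positivity : (0:ℝ) ≤ (n:ℝ) ^ 2)
    have e : (n:ℝ) ^ 2 * (1 - j / n) = (n:ℝ) ^ 2 - n * j := by field_simp
    linarith
  have hnn : 0 ≤ r + ((n:ℤ) + 1) * n := by
    have : (-1:ℝ) < ((r + ((n:ℤ) + 1) * n : ℤ) : ℝ) := by
      push_cast
      nlinarith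
    have h' : (-1:ℤ) < r + ((n:ℤ) + 1) * n := by exact_mod_cast this
    omega
  obtain ⟨i, hi⟩ := Int.eq_ofNat_of_zero_le hnn
  have hiR : (i:ℝ) = (r:ℝ) + ((n:ℝ) + 1) * n := by
    have := congrArg (fun x : ℤ => (x : ℝ)) hi
    push_cast at this
    linarith
  have hal : al5 n i = r / (n:ℝ) ^ 2 := by
    unfold al5
    rw [hiR]
    congr 1
    ring
  refine ⟨i, ?_, ?_⟩
  · have hlt : (i:ℝ) < ((n * (2 * n + 2 - j) + 1 : ℕ) : ℝ) := by
      rw [hiR]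
      push_cast [Nat.cast_sub (by omega : j ≤ 2 * n + 2)]
      nlinarith
    exact_mod_cast hlt
  obtain ⟨S, hS⟩ : ∃ S, S = T - al5 n i := ⟨_, rfl⟩
  have hSabs : |S| ≤ 1 / (2 * n ^ 2) := by
    have e : S = ((n:ℝ) ^ 2 * T - r) / (n:ℝ) ^ 2 := by
      rw [hS, hal]; field_simp
    rw [e, abs_div, abs_of_pos (by positivity : (0:ℝ) < (n:ℝ) ^ 2), div_le_div_iff₀ (by positivity) (by positivity)]
    nlinarith [hr1, (by positivity : (0:ℝ) < (n:ℝ) ^ 2)]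
  constructor
  · have e : ((1 - z) * X + al5 n i * z - al5 n i) + (z * Y - (al5 n i + kc n j) * z) = S := by
      rw [hS, hT']; ring
    rw [e]; exact hSabs
  · have e : ((1 - z) * X + al5 n i * z - al5 n i) - (z * Y - (al5 n i + kc n j) * z)
        = (1 - 2 * z) * S - 2 * (z * (1 - z)) * d := by
      rw [hS, hT, hd]; ring
    rw [e]
    have hz2 : |1 - 2 * z| ≤ 1 := by rw [abs_le]; constructor <;> linarith
    have hzz : 0 ≤ z * (1 - z) := mul_nonneg hz0 (by linarith)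
    calc |(1 - 2 * z) * S - 2 * (z * (1 - z)) * d|
        ≤ |(1 - 2 * z) * S| + |2 * (z * (1 - z)) * d| := abs_sub _ _
      _ = |1 - 2 * z| * |S| + 2 * (z * (1 - z)) * |d| := by
          rw [abs_mul, abs_mul (2 * (z * (1 - z))), abs_of_nonneg (by linarith : 0 ≤ 2 * (z * (1 - z)))]
      _ ≤ 1 * (1 / (2 * n ^ 2)) + rr n j / (4 * n) := by
          apply add_le_add
          · exact mul_le_mul hz2 hSabs (abs_nonneg _) zero_le_one
          · rw [hd]; exact hA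
      _ = rr n j / (4 * n) + 1 / (2 * n ^ 2) := by ring

end Vale.Agent.P243
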