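import Vale.Agent.P243.Defs5

namespace Vale.Agent.P243

theorem cover_gap (n j : ℕ) (hn : 0 < n) (hj : j < 2 * n) (z X Y h : ℝ) (hz0 : 0 ≤ z)
    (hz1 : z ≤ 1) (hX : |X| ≤ 1) (hY : |Y| ≤ 1) (hk1 : (j : ℝ) / n ≤ Y - X)
    (hk2 : Y - X ≤ ((j : ℝ) + 1) / n) (h0 : 0 ≤ h) (h1 : h ≤ 1) (hzh : |z - h| ≤ 1 / n ^ 2)
    (hB : rr n j / (4 * n) < 2 * (z * (1 - z)) * |Y - X - kc n j|) :
    ∃ g : Bool, lo n j g h ≤ (1 - h) * (z * Y) - h * ((1 - z) * X) ∧
      (1 - h) * (z * Y) - h * ((1 - z) * X) ≤ hi n j g h := by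
  have hn' : (0 : ℝ) < n := by exact_mod_cast hn
  have hj' : (j : ℝ) + 1 ≤ 2 * n := by exact_mod_cast hj
  have hj0 : (0 : ℝ) ≤ j := Nat.cast_nonneg j
  obtain ⟨e, he⟩ : ∃ e : ℝ, e = 1 / (n : ℝ) ^ 2 := ⟨_, rfl⟩
  have he0 : 0 ≤ e := by rw [he]; positivity
  obtain ⟨D, hD⟩ : ∃ D : ℝ, D = 1 / (2 * (n : ℝ)) := ⟨_, rfl⟩
  have hD0 : 0 < D := by rw [hD]; positivity
  obtain ⟨R, hR⟩ : ∃ R : ℝ, R = rr n j / (8 * n) := ⟨_, rfl⟩
  have hR4 : rr n j / (4 * n) = 2 * R := by rw [hR]; field_simp; ring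
  obtain ⟨k, hk⟩ : ∃ k : ℝ, k = kc n j := ⟨_, rfl⟩
  have hkc : k = (j + 1 / 2) / n := by rw [hk]; rfl
  have hkD1 : k - D = j / n := by rw [hkc, hD]; field_simp; ring
  have hkD2 : k + D = (j + 1) / n := by rw [hkc, hD]; field_simp; ring
  have hkD3 : k + D ≤ 2 := by
    rw [hkD2, div_le_iff₀ hn']; exact hj'
  have hk0 : 0 ≤ k - D := by rw [hkD1]; positivity
  have hgw : D * (h * (1 - h)) - R ≤ gw n j h := by
    have h2 : h * (1 - h) - rr n j / 4 ≤ max 0 (h * (1 - h) - rr n j / 4) := le_max_right _ _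
    have h3 : D * (h * (1 - h) - rr n j / 4) ≤ gw n j h := by
      unfold gw
      rw [← hD]
      exact mul_le_mul_of_nonneg_left h2 hD0.le
    have h4 : D * (rr n j / 4) = R := by rw [hD, hR]; field_simp; ring
    have h5 : D * (h * (1 - h) - rr n j / 4) = D * (h * (1 - h)) - D * (rr n j / 4) := by ring
    linarith
  rw [← hkD1] at hk1
  rw [← hkD2] at hk2
  rw [hR4, ← hk] at hB
  rw [← he] at hzh
  -- the two approximations
  obtain ⟨q, hq⟩ : ∃ q : ℝ, q = z * (1 - z) := ⟨_, rfl⟩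
  obtain ⟨g, hg⟩ : ∃ g : ℝ, g = h * (1 - h) := ⟨_, rfl⟩
  obtain ⟨w, hw⟩ : ∃ w : ℝ, w = (1 - h) * (z * Y) - h * ((1 - z) * X) := ⟨_, rfl⟩
  have hq0 : 0 ≤ q := by rw [hq]; exact mul_nonneg hz0 (by linarith)
  have hqg : |q - g| ≤ e := by
    have h2 : q - g = (z - h) * (1 - z - h) := by rw [hq, hg]; ring
    have h3 : |1 - z - h| ≤ 1 := by rw [abs_le]; constructor <;> linarith
    rw [h2, abs_mul]
    calc |z - h| * |1 - z - h| ≤ |z - h| * 1 := mul_le_mul_of_nonneg_left h3 (abs_nonneg _)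
      _ ≤ e := by rw [mul_one]; exact hzh
  have hwq : |w - q * (Y - X)| ≤ e := by
    have h2 : w - q * (Y - X) = (z - h) * (z * Y + (1 - z) * X) := by rw [hw, hq]; ring
    have h3 : |z * Y + (1 - z) * X| ≤ 1 := by
      calc |z * Y + (1 - z) * X| ≤ |z * Y| + |(1 - z) * X| := abs_add_le _ _
        _ = z * |Y| + (1 - z) * |X| := by
            rw [abs_mul, abs_mul, abs_of_nonneg hz0, abs_of_nonneg (show 0 ≤ 1 - z by linarith)]
        _ ≤ z * 1 + (1 - z) * 1 :=
            add_le_add (mul_le_mul_of_nonneg_left hY hz0)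
              (mul_le_mul_of_nonneg_left hX (by linarith))
        _ = 1 := by ring
    rw [h2, abs_mul]
    calc |z - h| * |z * Y + (1 - z) * X| ≤ |z - h| * 1 :=
          mul_le_mul_of_nonneg_left h3 (abs_nonneg _)
      _ ≤ e := by rw [mul_one]; exact hzh
  rw [abs_le] at hqg hwq
  rw [← hq] at hB
  have e3 : (3 : ℝ) / (n : ℝ) ^ 2 = 3 * e := by rw [he]; ring
  rw [← hw]
  rw [← hg] at hgw
  have hke : k * e + D * e ≤ 2 * e := by
    have := mul_le_mul_of_nonneg_right hkD3 he0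
    linarith
  have hDe : 0 ≤ D * e := mul_nonneg hD0.le he0
  have hkk : 0 ≤ k := by linarith
  have q1 : k * q ≤ k * g + k * e := by
    have := mul_le_mul_of_nonneg_left (show q ≤ g + e by linarith) hkk
    linarith
  have q2 : k * g - k * e ≤ k * q := by
    have := mul_le_mul_of_nonneg_left (show g - e ≤ q by linarith) hkk
    linarith
  have q3 : D * q ≤ D * g + D * e := by
    have := mul_le_mul_of_nonneg_left (show q ≤ g + e by linarith) hD0.le
    linarith
  have q4 : D * g - D * e ≤ D * q := by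
    have := mul_le_mul_of_nonneg_left (show g - e ≤ q by linarith) hD0.le
    linarith
  rcases le_total k (Y - X) with hc | hc
  · refine ⟨true, ?_, ?_⟩
    · have hlo : lo n j true h = g * k + R - 3 * e := by
        unfold lo
        rw [if_pos rfl, e3, ← hg, ← hk, ← hR]
      rw [abs_of_nonneg (by linarith)] at hB
      rw [hlo]
      have h6 : 2 * q * (Y - X - k) = 2 * (q * (Y - X)) - 2 * (k * q) := by ring
      linarith
    · have hhi : hi n j true h = g * k + R + gw n j h + 3 * e := by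
        unfold hi
        rw [if_pos rfl, e3, ← hg, ← hk, ← hR]
      rw [hhi]
      have h6 : q * (Y - X) ≤ q * (k + D) := mul_le_mul_of_nonneg_left hk2 hq0
      have h7 : q * (k + D) = k * q + D * q := by ring
      linarith
  · refine ⟨false, ?_, ?_⟩
    · have hlo : lo n j false h = g * k - R - gw n j h - 3 * e := by
        unfold lo
        rw [if_neg (by decide), e3, ← hg, ← hk, ← hR]
      rw [hlo]
      have h6 : q * (k - D) ≤ q * (Y - X) := mul_le_mul_of_nonneg_left hk1 hq0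
      have h7 : q * (k - D) = k * q - D * q := by ring
      have h8 : (k - D) * (g - e) ≤ (k - D) * q :=
        mul_le_mul_of_nonneg_left (by linarith) hk0
      have h9 : (k - D) * (g - e) = k * g - D * g - (k * e - D * e) := by ring
      have h10 : (k - D) * q = q * (k - D) := by ring
      linarith
    · have hhi : hi n j false h = g * k - R + 3 * e := by
        unfold hi
        rw [if_neg (by decide), e3, ← hg, ← hk, ← hR]
      rw [abs_of_nonpos (by linarith)] at hB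
      rw [hhi]
      have h6 : 2 * q * -(Y - X - k) = 2 * (k * q) - 2 * (q * (Y - X)) := by ring
      linarith

end Vale.Agent.P243
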