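import Mathlib

/-!
# P243: coverings of convex bodies by cylinders (definitions)
-/

open MeasureTheory

namespace Vale.Agent.P243

/-- Euclidean three-space. -/
abbrev E3 : Type := EuclideanSpace ℝ (Fin 3)

/-- The plane through the origin orthogonal to `u`. -/
noncomputable abbrev perp (u : E3) : Submodule ℝ E3 := (Submodule.span ℝ {u})ᗮ

/-- Euclidean area on the plane `perp u`. -/
noncomputable def planeArea (u : E3) : Measure (perp u) := volume

/-- The orthogonal projection onto the plane `perp u`. -/
noncomputable def proj (u : E3) (x : E3) : perp u := (perp u).orthogonalProjectionOnto x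

/-- The orthogonal projection of `K` onto the plane `perp u`, as a subset of that plane. -/
noncomputable def shadow (u : E3) (K : Set E3) : Set (perp u) := proj u '' K

/-- A cylinder: a unit direction `dir` and a Lebesgue measurable base of finite area in the
plane orthogonal to `dir`. -/
structure Cyl where
  dir : E3
  norm_dir : ‖dir‖ = 1
  base : Set (perp dir)
  base_measurable : NullMeasurableSet base (planeArea dir)
  base_finite : planeArea dir base < ⊤

/-- The point set `B + ℝ u` of a cylinder. -/
def Cyl.toSet (c : Cyl) : Set E3 := {x | ∃ b ∈ c.base, ∃ t : ℝ, x = (b : E3) + t • c.dir}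

/-- Convex bodies: compact convex sets with nonempty interior. -/
def IsConvexBody (K : Set E3) : Prop := IsCompact K ∧ Convex ℝ K ∧ (interior K).Nonempty

/-- The area of the base of `c` divided by the area of the shadow of `K` in the direction of
`c`. -/
noncomputable def ratio (c : Cyl) (K : Set E3) : ℝ :=
  (planeArea c.dir c.base).toReal / (planeArea c.dir (shadow c.dir K)).toReal

/-- The directionwise relative area of a finite family of cylinders with respect to `K`. -/
noncomputable def relArea {m : ℕ} (C : Fin m → Cyl) (K : Set E3) : ℝ := ∑ i, ratio (C i) K

/-- The family `C` covers `K`. -/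
def Covers {m : ℕ} (C : Fin m → Cyl) (K : Set E3) : Prop := K ⊆ ⋃ i, (C i).toSet

/-- The infimum of the directionwise relative area over all convex bodies and all their finite
coverings by cylinders. -/
noncomputable def r3 : ℝ :=
  sInf {r | ∃ K : Set E3, IsConvexBody K ∧ ∃ (m : ℕ) (C : Fin m → Cyl),
    Covers C K ∧ r = relArea C K}

end Vale.Agent.P243
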