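import Vale.Agent.P243.Main

open MeasureTheory

namespace Vale.Agent.P243

/-- Relative size of the cell `j` (of `2 n` cells). -/
noncomputable def mm (n j : ℕ) : ℝ := 1 - j / (2 * n)

/-- The threshold parameter of the cell `j`. -/
noncomputable def rr (n j : ℕ) : ℝ := 1 - mm n j ^ 2

/-- Center of the cell `j`. -/
noncomputable def kc (n j : ℕ) : ℝ := (j + 1 / 2) / n

/-- First parameter of the blade with index `i`. -/
noncomputable def al5 (n i : ℕ) : ℝ := (i - (n + 1) * n) / n ^ 2

/-- Width of the gap at height `h` in the cell `j`. -/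
noncomputable def gw (n j : ℕ) (h : ℝ) : ℝ := 1 / (2 * n) * max 0 (h * (1 - h) - rr n j / 4)

/-- Lower end of the `g`-th gap. -/
noncomputable def lo (n j : ℕ) (g : Bool) (h : ℝ) : ℝ :=
  if g then h * (1 - h) * kc n j + rr n j / (8 * n) - 3 / n ^ 2
  else h * (1 - h) * kc n j - rr n j / (8 * n) - gw n j h - 3 / n ^ 2

/-- Upper end of the `g`-th gap. -/
noncomputable def hi (n j : ℕ) (g : Bool) (h : ℝ) : ℝ :=
  if g then h * (1 - h) * kc n j + rr n j / (8 * n) + gw n j h + 3 / n ^ 2
  else h * (1 - h) * kc n j - rr n j / (8 * n) + 3 / n ^ 2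

end Vale.Agent.P243
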