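import Vale.Agent.P243.Tubes
import Vale.Agent.P243.Cover
import Vale.Agent.P243.Count

open MeasureTheory

namespace Vale.Agent.P243

/-- From a finite index type to `Fin m`. -/
theorem exists_fin {ι : Type} [Fintype ι] (C : ι → Cyl) (K : Set E3)
    (hK : K ⊆ ⋃ i, (C i).toSet) (R : ℝ)
    (hR : ∑ i, ratio (C i) K ≤ R) :
    ∃ (m : ℕ) (D : Fin m → Cyl), Covers D K ∧ relArea D K ≤ R := by
  let e := Fintype.equivFin ι
  refine ⟨Fintype.card ι, fun j => C (e.symm j), ?_, ?_⟩
  · intro x hx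
    obtain ⟨i, hi⟩ := Set.mem_iUnion.mp (hK hx)
    refine Set.mem_iUnion.mpr ⟨e i, ?_⟩
    simpa using hi
  · unfold relArea
    rw [Equiv.sum_comp e.symm (fun i => ratio (C i) K)]
    exact hR

theorem exists_covering (n : ℕ) (hn : 0 < n) :
    ∃ (m : ℕ) (C : Fin m → Cyl), Covers C tetra ∧ relArea C tetra ≤ 4 / 9 + 6 / n := by
  have hn' : (0 : ℝ) < n := by exact_mod_cast hn
  set r : ℝ := (1 + 1 / n) / (6 * n) with hr
  have hr0 : 0 < r := by positivity
  have hr1 : 1 / (6 * (n : ℝ)) < r := by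
    rw [hr]
    apply div_lt_div_of_pos_right _ (by positivity)
    have : 0 < 1 / (n : ℝ) := by positivity
    linarith
  have hA : ∀ i : Tri n × Bool, ∃ c : Cyl,
      c.toSet = {p | |p 1 - ((if i.2 then 1 else -1) * be n (2 * (i.1.1 : ℕ) - (i.1.2 : ℕ))) * p 2| +
        |p 0 + ((if i.2 then 1 else -1) * al n (i.1.2 : ℕ)) * p 2 -
          ((if i.2 then 1 else -1) * al n (i.1.2 : ℕ))| < r} ∧
      ratio c tetra ≤ r ^ 2 := by
    intro i
    have hs : (i.1.1 : ℕ) ≤ 2 * n := Nat.lt_succ_iff.mp i.1.1.2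
    have hb := be_mem n (2 * (i.1.1 : ℕ) - (i.1.2 : ℕ)) hn (by omega)
    apply tubeA
    · split_ifs <;> linarith [hb.1, hb.2]
    · split_ifs <;> linarith [hb.1, hb.2]
    · exact hr0
  choose CA hCA using hA
  have hF : ∀ k : Fin n, ∃ c : Cyl,
      c.toSet = {p | ((((k : ℕ) : ℝ) / n ≤ p 2 ∧ p 2 ≤ (((k : ℕ) : ℝ) + 1) / n) ∧
        |(1 - ((k : ℕ) : ℝ) / n) * p 1 - ((k : ℕ) : ℝ) / n * p 0| ≤
          2 / 3 * (((k : ℕ) : ℝ) / n * (1 - (k : ℕ) / n)) + (5 / 3) / n)} ∧
      ratio c tetra ≤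
        ((((k : ℕ) : ℝ) + 1) / n - (k : ℕ) / n) *
          (2 * (2 / 3 * (((k : ℕ) : ℝ) / n * (1 - (k : ℕ) / n)) + (5 / 3) / n)) := by
    intro k
    have hk : ((k : ℕ) : ℝ) / n ≤ 1 := by
      rw [div_le_one hn']; exact_mod_cast k.2.le
    have hk0 : 0 ≤ ((k : ℕ) : ℝ) / n := by positivity
    apply tubeF
    · exact hk0
    · exact hk
    · apply div_le_div_of_nonneg_right _ hn'.le; linarith
    · have : 0 ≤ ((k : ℕ) : ℝ) / n * (1 - (k : ℕ) / n) := mul_nonneg hk0 (by linarith)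
      positivity
  choose CF hCF using hF
  apply exists_fin (ι := (Tri n × Bool) ⊕ Fin n) (Sum.elim CA CF)
  · intro p hp
    obtain ⟨hz0, hz1, hx, hy⟩ := hp
    rw [Set.mem_iUnion]
    by_cases hin : |p 2 * p 0 - (1 - p 2) * p 1| ≤ (2 / 3) * (p 2 * (1 - p 2))
    · -- horizontal slabs
      obtain ⟨k, hk1, hk2⟩ : ∃ k : Fin n, ((k : ℕ) : ℝ) / n ≤ p 2 ∧
          p 2 ≤ (((k : ℕ) : ℝ) + 1) / n := by
        have hzn : 0 ≤ p 2 * n := by positivity
        by_cases hlt : ⌊p 2 * n⌋₊ < n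
        · refine ⟨⟨⌊p 2 * n⌋₊, hlt⟩, ?_, ?_⟩
          · simp only
            rw [div_le_iff₀ hn']
            exact Nat.floor_le hzn
          · simp only
            rw [le_div_iff₀ hn']
            exact (Nat.lt_floor_add_one _).le
        · have h1 : (n : ℝ) ≤ p 2 * n := by
            have := Nat.floor_le hzn
            have h3 : (n : ℝ) ≤ (⌊p 2 * n⌋₊ : ℝ) := by exact_mod_cast (not_lt.mp hlt)
            linarith
          have h2 : p 2 = 1 := by
            apply le_antisymm hz1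
            by_contra hcon
            push Not at hcon
            nlinarith
          refine ⟨⟨n - 1, by omega⟩, ?_, ?_⟩
          · simp only
            rw [div_le_iff₀ hn', h2, one_mul]
            exact_mod_cast Nat.sub_le n 1
          · simp only
            rw [le_div_iff₀ hn', h2, one_mul]
            have : ((n - 1 : ℕ) : ℝ) + 1 = n := by
              exact_mod_cast Nat.sub_add_cancel hn
            rw [this]
      refine ⟨Sum.inr k, ?_⟩
      simp only [Sum.elim_inr]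
      rw [(hCF k).1]
      refine ⟨⟨hk1, hk2⟩, ?_⟩
      have hkn : ((k : ℕ) : ℝ) / n ≤ 1 := by
        rw [div_le_one hn']; exact_mod_cast k.2.le
      have hk0 : 0 ≤ ((k : ℕ) : ℝ) / n := by positivity
      apply cover_inner (p 0) (p 1) (p 2) _ n _ hn' hk0 hkn hz0 hz1 hx hy _ rfl hin
      rw [abs_le]
      have h5 : (((k : ℕ) : ℝ) + 1) / n = (k : ℕ) / n + 1 / n := by ring
      have h6 : 0 ≤ 1 / (n : ℝ) := by positivity
      rw [h5] at hk2
      constructor <;> linarith
    · push Not at hin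
      rcases lt_abs.mp hin with hpos | hneg
      · obtain ⟨P, Q, s, h1, h2, h3⟩ := cover_pos (p 0) (p 1) (p 2) n hn hz0 hz1 hx hy hpos
        refine ⟨Sum.inl ((⟨⟨s, by omega⟩, ⟨P, by simp only; omega⟩⟩ : Tri n), true), ?_⟩
        simp only [Sum.elim_inl]
        rw [(hCA _).1]
        have hQ : 2 * s - P = Q := by omega
        simp only [if_true, one_mul, Set.mem_ofPred_eq, hQ]
        linarith
      · obtain ⟨P, Q, s, h1, h2, h3⟩ := cover_pos (-p 0) (-p 1) (p 2) n hn hz0 hz1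
          (by rw [abs_neg]; exact hx) (by rw [abs_neg]; exact hy) (by linarith)
        refine ⟨Sum.inl ((⟨⟨s, by omega⟩, ⟨P, by simp only; omega⟩⟩ : Tri n), false), ?_⟩
        simp only [Sum.elim_inl]
        rw [(hCA _).1]
        have hQ : 2 * s - P = Q := by omega
        simp only [Bool.false_eq_true, if_false, Set.mem_ofPred_eq, hQ]
        have e1 : |p 1 - -1 * be n Q * p 2| = |-p 1 - be n Q * p 2| := by
          rw [← abs_neg]; congr 1; ring
        have e2 : |p 0 + -1 * al n P * p 2 - -1 * al n P| = |-p 0 + al n P * p 2 - al n P| := by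
          rw [← abs_neg]; congr 1; ring
        rw [e1, e2]
        linarith
  · rw [Fintype.sum_sum_type]
    simp only [Sum.elim_inl, Sum.elim_inr]
    have h1 : ∑ i : Tri n × Bool, ratio (CA i) tetra ≤ 2 / 9 + 2 / n := by
      calc _ ≤ ∑ i : Tri n × Bool, r ^ 2 := Finset.sum_le_sum (fun i _ => (hCA i).2)
        _ = (2 * (2 * (n : ℝ) + 1) ^ 2) * r ^ 2 := by
            rw [Finset.sum_const, Finset.card_univ, Fintype.card_prod, card_tri,
              Fintype.card_bool, nsmul_eq_mul]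
            push_cast
            ring
        _ ≤ 2 / 9 + 2 / n := side_total n hn
    have h2 : ∑ k : Fin n, ratio (CF k) tetra ≤ 2 / 9 + (10 / 3) / n :=
      (Finset.sum_le_sum (fun k _ => (hCF k).2)).trans (slab_total n hn)
    have h3 : 6 / (n : ℝ) = 2 / n + (10 / 3) / n + (2 / 3) / n := by ring
    have h4 : 0 ≤ (2 / 3) / (n : ℝ) := by positivity
    refine (add_le_add h1 h2).trans ?_
    rw [h3]
    linarith

end Vale.Agent.P243
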