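import Vale.Agent.P243.Defs5

open MeasureTheory

namespace Vale.Agent.P243

theorem sum_id5 (N : ℕ) : ∑ i ∈ Finset.range N, ((i : ℝ) + 1) = N * (N + 1) / 2 := by
  induction N with
  | zero => simp
  | succ N ih =>
    rw [Finset.sum_range_succ, ih]
    push_cast
    ring

theorem sum_cube5 (N : ℕ) :
    ∑ i ∈ Finset.range N, ((i : ℝ) + 1) ^ 3 = ((N : ℝ) * ((N : ℝ) + 1) / 2) ^ 2 := by
  induction N with
  | zero => simp
  | succ N ih =>
    rw [Finset.sum_range_succ, ih]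
    push_cast
    ring

theorem mm_reflect (n : ℕ) (hn : 0 < n) (F : ℝ → ℝ) :
    ∑ j ∈ Finset.range (2 * n), F (mm n j) =
      ∑ i ∈ Finset.range (2 * n), F (((i : ℝ) + 1) / (2 * n)) := by
  rw [← Finset.sum_range_reflect]
  refine Finset.sum_congr rfl fun j hj => ?_
  rw [Finset.mem_range] at hj
  congr 1
  have hn' : (0 : ℝ) < n := by exact_mod_cast hn
  have h1 : ((2 * n - 1 - j : ℕ) : ℝ) = 2 * n - 1 - j := by
    rw [Nat.sub_sub, Nat.cast_sub (by omega)]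
    push_cast
    ring
  unfold mm
  rw [h1]
  field_simp
  ring

theorem sum_mm (n : ℕ) (hn : 0 < n) :
    ∑ j ∈ Finset.range (2 * n), mm n j = (2 * (n : ℝ) + 1) / 2 := by
  have hn' : (0 : ℝ) < n := by exact_mod_cast hn
  rw [mm_reflect n hn (fun x => x), ← Finset.sum_div, sum_id5]
  push_cast
  field_simp

theorem sum_mm3 (n : ℕ) (hn : 0 < n) :
    ∑ j ∈ Finset.range (2 * n), mm n j ^ 3 = (2 * (n : ℝ) + 1) ^ 2 / (8 * n) := by
  have hn' : (0 : ℝ) < n := by exact_mod_cast hn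
  rw [mm_reflect n hn (fun x => x ^ 3)]
  simp only [div_pow]
  rw [← Finset.sum_div, sum_cube5]
  push_cast
  field_simp
  ring

theorem mm_pos5 (n j : ℕ) (hn : 0 < n) (hj : j < 2 * n) : 0 ≤ mm n j := by
  have hn' : (0 : ℝ) < n := by exact_mod_cast hn
  have hj' : (j : ℝ) ≤ 2 * n := by exact_mod_cast hj.le
  unfold mm
  rw [sub_nonneg, div_le_one (by positivity)]
  exact hj'

theorem mm_le_one5 (n j : ℕ) : mm n j ≤ 1 := by
  unfold mm
  have : (0 : ℝ) ≤ j / (2 * n) := by positivity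
  linarith

theorem sumA (n : ℕ) (hn : 0 < n) :
    ∑ j ∈ Finset.range (2 * n), (((n * (2 * n + 2 - j) + 1 : ℕ) : ℝ) *
      ((1 / (2 * (n : ℝ) ^ 2)) * (rr n j / (4 * n) + 1 / (2 * (n : ℝ) ^ 2)))) ≤
      (1 / 8 : ℝ) + 10 / (n : ℝ) := by
  have hn' : (0 : ℝ) < n := by exact_mod_cast hn
  have hn1 : (1 : ℝ) ≤ n := by exact_mod_cast hn
  have hterm : ∀ j ∈ Finset.range (2 * n), (((n * (2 * n + 2 - j) + 1 : ℕ) : ℝ) *
      ((1 / (2 * (n : ℝ) ^ 2)) * (rr n j / (4 * n) + 1 / (2 * (n : ℝ) ^ 2)))) ≤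
      (1 / (4 * n)) * (mm n j - mm n j ^ 3) + 3 / (n : ℝ) ^ 2 := by
    intro j hj
    rw [Finset.mem_range] at hj
    have m0 := mm_pos5 n j hn hj
    have m1 := mm_le_one5 n j
    have e1 : ((n * (2 * n + 2 - j) + 1 : ℕ) : ℝ) * (1 / (2 * (n : ℝ) ^ 2)) =
        mm n j + 1 / n + 1 / (2 * (n : ℝ) ^ 2) := by
      have h1 : ((2 * n + 2 - j : ℕ) : ℝ) = 2 * n + 2 - j := by
        rw [Nat.cast_sub (by omega)]
        push_cast
        ring
      push_cast [h1]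
      unfold mm
      field_simp
      ring
    have h2 : 1 / (2 * (n : ℝ) ^ 2) ≤ 1 / (2 * n) := by
      apply one_div_le_one_div_of_le (by positivity)
      nlinarith
    have e2 : mm n j + 1 / n + 1 / (2 * (n : ℝ) ^ 2) ≤ mm n j + 3 / (2 * n) := by
      have : 1 / (n : ℝ) + 1 / (2 * n) = 3 / (2 * n) := by field_simp; ring
      linarith
    have hr0 : 0 ≤ rr n j := by
      unfold rr
      nlinarith
    have hr1 : rr n j ≤ 1 := by
      unfold rr
      nlinarith [sq_nonneg (mm n j)]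
    have hq : 0 ≤ rr n j / (4 * n) + 1 / (2 * (n : ℝ) ^ 2) := by positivity
    rw [← mul_assoc, e1]
    have e3 : (mm n j + 1 / n + 1 / (2 * (n : ℝ) ^ 2)) *
        (rr n j / (4 * n) + 1 / (2 * (n : ℝ) ^ 2)) ≤
        (mm n j + 3 / (2 * n)) * (rr n j / (4 * n) + 1 / (2 * (n : ℝ) ^ 2)) :=
      mul_le_mul_of_nonneg_right e2 hq
    refine e3.trans ?_
    have e4 : (mm n j + 3 / (2 * n)) * (rr n j / (4 * n) + 1 / (2 * (n : ℝ) ^ 2)) =
        (1 / (4 * n)) * (mm n j - mm n j ^ 3) +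
          (mm n j / 2 + 3 / 8 * rr n j + (3 / 4) * (1 / n)) / (n : ℝ) ^ 2 := by
      unfold rr
      field_simp
      ring
    rw [e4]
    have h3 : 1 / (n : ℝ) ≤ 1 := by
      rw [div_le_one hn']
      exact hn1
    have h4 : mm n j / 2 + 3 / 8 * rr n j + (3 / 4) * (1 / n) ≤ 3 := by linarith
    have h5 := div_le_div_of_nonneg_right h4 (by positivity : (0 : ℝ) ≤ (n : ℝ) ^ 2)
    linarith
  refine (Finset.sum_le_sum hterm).trans ?_
  rw [Finset.sum_add_distrib, ← Finset.mul_sum, Finset.sum_sub_distrib, sum_mm n hn,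
    sum_mm3 n hn, Finset.sum_const, Finset.card_range, nsmul_eq_mul]
  have e5 : 1 / (4 * (n : ℝ)) * ((2 * (n : ℝ) + 1) / 2 - (2 * (n : ℝ) + 1) ^ 2 / (8 * n)) =
      1 / 8 - 1 / (32 * (n : ℝ) ^ 2) := by
    field_simp
    ring
  have e6 : ((2 * n : ℕ) : ℝ) * (3 / (n : ℝ) ^ 2) = 6 / n := by
    push_cast
    field_simp
    ring
  rw [e5, e6]
  have h7 : 0 ≤ 1 / (32 * (n : ℝ) ^ 2) := by positivity
  have h8 : 6 / (n : ℝ) ≤ 10 / n := by gcongr; norm_num
  linarith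

end Vale.Agent.P243
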