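import Vale.Agent.P243.Defs5

/-!
# P243: a Riemann sum
-/

open MeasureTheory

namespace Vale.Agent.P243

/-- the profile of the gaps -/
noncomputable def prof (m x : ℝ) : ℝ := max 0 (x * (1 - x) - (1 - m ^ 2) / 4)

theorem prof_cont (m : ℝ) : Continuous (prof m) := by
  unfold prof
  fun_prop

theorem prof_lip (m : ℝ) {x y : ℝ} (hx0 : 0 ≤ x) (hx1 : x ≤ 1) (hy0 : 0 ≤ y) (hy1 : y ≤ 1) :
    prof m x ≤ prof m y + |x - y| := by
  unfold prof
  refine max_le ?_ ?_
  · have := le_max_left 0 (y * (1 - y) - (1 - m ^ 2) / 4)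
    have := abs_nonneg (x - y)
    linarith
  · have h1 := le_max_right 0 (y * (1 - y) - (1 - m ^ 2) / 4)
    have h2 : x * (1 - x) - y * (1 - y) ≤ |x - y| := by
      have e : x * (1 - x) - y * (1 - y) = (x - y) * (1 - x - y) := by ring
      rw [e]
      refine (le_abs_self _).trans ?_
      rw [abs_mul]
      have h3 : |1 - x - y| ≤ 1 := by
        rw [abs_le]
        constructor <;> linarith
      calc |x - y| * |1 - x - y| ≤ |x - y| * 1 := mul_le_mul_of_nonneg_left h3 (abs_nonneg _)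
        _ = |x - y| := mul_one _
    linarith

theorem prof_int (m : ℝ) (hm0 : 0 ≤ m) (hm1 : m ≤ 1) :
    ∫ x in (0 : ℝ)..1, prof m x = m ^ 3 / 6 := by
  have hc := prof_cont m
  have hi : ∀ a b : ℝ, IntervalIntegrable (prof m) volume a b := fun a b =>
    hc.intervalIntegrable a b
  rw [← intervalIntegral.integral_add_adjacent_intervals (hi 0 (1 / 2 - m / 2))
    (hi (1 / 2 - m / 2) 1),
    ← intervalIntegral.integral_add_adjacent_intervals (hi (1 / 2 - m / 2) (1 / 2 + m / 2))
    (hi (1 / 2 + m / 2) 1)]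
  have h1 : ∫ x in (0 : ℝ)..(1 / 2 - m / 2), prof m x = 0 := by
    have h : ∫ x in (0 : ℝ)..(1 / 2 - m / 2), prof m x =
        ∫ x in (0 : ℝ)..(1 / 2 - m / 2), (0 : ℝ) := by
      apply intervalIntegral.integral_congr
      intro x hx
      rw [Set.uIcc_of_le (by linarith)] at hx
      simp only
      unfold prof
      apply max_eq_left
      nlinarith [hx.1, hx.2]
    rw [h]
    simp
  have h3 : ∫ x in (1 / 2 + m / 2)..1, prof m x = 0 := by
    have h : ∫ x in (1 / 2 + m / 2)..1, prof m x =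
        ∫ x in (1 / 2 + m / 2)..1, (0 : ℝ) := by
      apply intervalIntegral.integral_congr
      intro x hx
      rw [Set.uIcc_of_le (by linarith)] at hx
      simp only
      unfold prof
      apply max_eq_left
      nlinarith [hx.1, hx.2]
    rw [h]
    simp
  have h2 : ∫ x in (1 / 2 - m / 2)..(1 / 2 + m / 2), prof m x = m ^ 3 / 6 := by
    have h : ∫ x in (1 / 2 - m / 2)..(1 / 2 + m / 2), prof m x =
        ∫ x in (1 / 2 - m / 2)..(1 / 2 + m / 2), (x * (1 - x) - (1 - m ^ 2) / 4) := by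
      apply intervalIntegral.integral_congr
      intro x hx
      rw [Set.uIcc_of_le (by linarith)] at hx
      simp only
      unfold prof
      apply max_eq_right
      nlinarith [hx.1, hx.2, mul_nonneg (sub_nonneg.2 hx.1) (sub_nonneg.2 hx.2)]
    rw [h, intervalIntegral.integral_eq_sub_of_hasDerivAt
      (f := fun x => x ^ 2 / 2 - x ^ 3 / 3 - (1 - m ^ 2) / 4 * x)]
    · ring
    · intro x _
      have d2 : HasDerivAt (fun x : ℝ => x ^ 2 / 2) (2 * x / 2) x := by
        have := (hasDerivAt_pow 2 x).div_const 2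
        simpa using this
      have d3 : HasDerivAt (fun x : ℝ => x ^ 3 / 3) (3 * x ^ 2 / 3) x := by
        have := (hasDerivAt_pow 3 x).div_const 3
        simpa using this
      have d1 : HasDerivAt (fun x : ℝ => (1 - m ^ 2) / 4 * x) ((1 - m ^ 2) / 4 * 1) x :=
        (hasDerivAt_id' x).const_mul _
      have d := (d2.sub d3).sub d1
      have e : 2 * x / 2 - 3 * x ^ 2 / 3 - (1 - m ^ 2) / 4 * 1 =
          x * (1 - x) - (1 - m ^ 2) / 4 := by ring
      rw [e] at d
      exact d
    · exact Continuous.intervalIntegrable (by fun_prop) _ _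
  rw [h1, h2, h3]
  ring

theorem riem (m : ℝ) (hm0 : 0 ≤ m) (hm1 : m ≤ 1) (M : ℕ) (hM : 0 < M) :
    ∑ k ∈ Finset.range M, (1 / (M : ℝ)) *
      max 0 (((k : ℝ) / M) * (1 - (k : ℝ) / M) - (1 - m ^ 2) / 4) ≤ m ^ 3 / 6 + 1 / M := by
  have hM' : (0 : ℝ) < M := by exact_mod_cast hM
  have hc := prof_cont m
  have hstep : ∀ k ∈ Finset.range M, (1 / (M : ℝ)) *
      max 0 (((k : ℝ) / M) * (1 - (k : ℝ) / M) - (1 - m ^ 2) / 4) ≤
      (∫ x in ((k : ℝ) / M)..(((k + 1 : ℕ) : ℝ) / M), prof m x) + 1 / (M : ℝ) ^ 2 := by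
    intro k hk
    have hkM : ((k + 1 : ℕ) : ℝ) ≤ M := by
      exact_mod_cast Nat.succ_le_of_lt (Finset.mem_range.1 hk)
    have hle : (k : ℝ) / M ≤ ((k + 1 : ℕ) : ℝ) / M := by
      apply div_le_div_of_nonneg_right _ hM'.le
      push_cast
      linarith
    have hk0 : 0 ≤ (k : ℝ) / M := by positivity
    have hk1 : ((k + 1 : ℕ) : ℝ) / M ≤ 1 := (div_le_one hM').2 hkM
    have hlen : ((k + 1 : ℕ) : ℝ) / M - (k : ℝ) / M = 1 / M := by
      push_cast
      ring
    have h1 : ∫ _x in ((k : ℝ) / M)..(((k + 1 : ℕ) : ℝ) / M), prof m ((k : ℝ) / M) ≤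
        ∫ x in ((k : ℝ) / M)..(((k + 1 : ℕ) : ℝ) / M), (prof m x + 1 / M) := by
      apply intervalIntegral.integral_mono_on hle
      · exact intervalIntegrable_const
      · exact (hc.add continuous_const).intervalIntegrable _ _
      · intro x hx
        have h2 := prof_lip m hk0 (hle.trans hk1) (hk0.trans hx.1) (hx.2.trans hk1)
        have h3 : |(k : ℝ) / M - x| ≤ 1 / M := by
          rw [abs_le]
          constructor <;> linarith [hx.1, hx.2]
        linarith
    rw [intervalIntegral.integral_const, intervalIntegral.integral_add (hc.intervalIntegrable _ _)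
      intervalIntegrable_const, intervalIntegral.integral_const, hlen] at h1
    simp only [smul_eq_mul] at h1
    have e1 : (1 / (M : ℝ)) * (1 / M) = 1 / (M : ℝ) ^ 2 := by
      rw [pow_two]
      field_simp
    rw [e1] at h1
    exact h1
  refine (Finset.sum_le_sum hstep).trans ?_
  rw [Finset.sum_add_distrib]
  have hsum := intervalIntegral.sum_integral_adjacent_intervals
    (f := prof m) (a := fun k : ℕ => (k : ℝ) / M) (μ := volume) (n := M)
    (fun k _ => hc.intervalIntegrable _ _)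
  rw [hsum, Finset.sum_const, Finset.card_range, nsmul_eq_mul]
  have e2 : ((M : ℕ) : ℝ) / M = 1 := div_self hM'.ne'
  have e3 : ((0 : ℕ) : ℝ) / M = 0 := by simp
  rw [e2, e3, prof_int m hm0 hm1]
  have e4 : (M : ℝ) * (1 / (M : ℝ) ^ 2) = 1 / M := by
    field_simp
  rw [e4]

end Vale.Agent.P243
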