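import Vale.Agent.P243.SumA
import Vale.Agent.P243.Riem

open MeasureTheory

namespace Vale.Agent.P243

/-- `sumF` from the Riemann sum estimate. -/
theorem sumF_of_riem (hriem : ∀ (m : ℝ) (_ : 0 ≤ m) (_ : m ≤ 1) (M : ℕ) (_ : 0 < M),
      ∑ k ∈ Finset.range M, (1 / (M : ℝ)) *
        max 0 (((k : ℝ) / M) * (1 - (k : ℝ) / M) - (1 - m ^ 2) / 4) ≤ m ^ 3 / 6 + 1 / M)
    (n : ℕ) (hn : 0 < n) :
    ∑ j ∈ Finset.range (2 * n), ∑ k ∈ Finset.range (n ^ 2),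
      (2 : ℝ) * ((1 / (n : ℝ) ^ 2) * (gw n j ((k : ℝ) / (n : ℝ) ^ 2) + 6 / (n : ℝ) ^ 2)) ≤
      (1 / 12 : ℝ) + 30 / (n : ℝ) := by
  have hn' : (0 : ℝ) < n := by exact_mod_cast hn
  have hn1 : (1 : ℝ) ≤ n := by exact_mod_cast hn
  have hterm : ∀ j ∈ Finset.range (2 * n), ∑ k ∈ Finset.range (n ^ 2),
      (2 : ℝ) * ((1 / (n : ℝ) ^ 2) * (gw n j ((k : ℝ) / (n : ℝ) ^ 2) + 6 / (n : ℝ) ^ 2)) ≤
      (1 / (6 * n)) * mm n j ^ 3 + 13 / (n : ℝ) ^ 2 := by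
    intro j hj
    rw [Finset.mem_range] at hj
    have m0 := mm_pos5 n j hn hj
    have m1 := mm_le_one5 n j
    have hR := hriem (mm n j) m0 m1 (n ^ 2) (by positivity)
    rw [Nat.cast_pow] at hR
    have e1 : ∑ k ∈ Finset.range (n ^ 2),
        (2 : ℝ) * ((1 / (n : ℝ) ^ 2) * (gw n j ((k : ℝ) / (n : ℝ) ^ 2) + 6 / (n : ℝ) ^ 2)) =
        (1 / n) * ∑ k ∈ Finset.range (n ^ 2), (1 / (n : ℝ) ^ 2) *
          max 0 (((k : ℝ) / (n : ℝ) ^ 2) * (1 - (k : ℝ) / (n : ℝ) ^ 2) -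
            (1 - mm n j ^ 2) / 4) + 12 / (n : ℝ) ^ 2 := by
      rw [Finset.mul_sum]
      have e2 : ∀ k ∈ Finset.range (n ^ 2),
          (2 : ℝ) * ((1 / (n : ℝ) ^ 2) * (gw n j ((k : ℝ) / (n : ℝ) ^ 2) + 6 / (n : ℝ) ^ 2)) =
          (1 / n) * ((1 / (n : ℝ) ^ 2) *
          max 0 (((k : ℝ) / (n : ℝ) ^ 2) * (1 - (k : ℝ) / (n : ℝ) ^ 2) -
            (1 - mm n j ^ 2) / 4)) + 12 / (n : ℝ) ^ 4 := by
        intro k _
        unfold gw rr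
        field_simp
        ring
      rw [Finset.sum_congr rfl e2, Finset.sum_add_distrib, Finset.sum_const, Finset.card_range,
        nsmul_eq_mul]
      congr 1
      push_cast
      field_simp
    rw [e1]
    have h2 := mul_le_mul_of_nonneg_left hR (by positivity : (0 : ℝ) ≤ 1 / n)
    have h3 : 1 / (n : ℝ) * (mm n j ^ 3 / 6 + 1 / (n : ℝ) ^ 2) =
        (1 / (6 * n)) * mm n j ^ 3 + (1 / n) * (1 / (n : ℝ) ^ 2) := by
      field_simp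
    have h4 : (1 / (n : ℝ)) * (1 / (n : ℝ) ^ 2) ≤ 1 / (n : ℝ) ^ 2 := by
      have h5 : 1 / (n : ℝ) ≤ 1 := by
        rw [div_le_one hn']
        exact hn1
      calc (1 / (n : ℝ)) * (1 / (n : ℝ) ^ 2) ≤ 1 * (1 / (n : ℝ) ^ 2) :=
            mul_le_mul_of_nonneg_right h5 (by positivity)
        _ = 1 / (n : ℝ) ^ 2 := one_mul _
    have h6 : (1 : ℝ) / (n : ℝ) ^ 2 + 12 / (n : ℝ) ^ 2 = 13 / (n : ℝ) ^ 2 := by
      rw [← add_div]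
      norm_num
    linarith
  refine (Finset.sum_le_sum hterm).trans ?_
  rw [Finset.sum_add_distrib, ← Finset.mul_sum, sum_mm3 n hn, Finset.sum_const,
    Finset.card_range, nsmul_eq_mul]
  have e5 : 1 / (6 * (n : ℝ)) * ((2 * (n : ℝ) + 1) ^ 2 / (8 * n)) =
      1 / 12 + (1 / 12) * (1 / n) + (1 / 48) * ((1 / n) * (1 / n)) := by
    field_simp
    ring
  have e6 : ((2 * n : ℕ) : ℝ) * (13 / (n : ℝ) ^ 2) = 26 * (1 / n) := by
    push_cast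
    field_simp
    ring
  have e7 : 30 / (n : ℝ) = 30 * (1 / n) := by ring
  rw [e5, e6, e7]
  have h7 : 1 / (n : ℝ) ≤ 1 := by
    rw [div_le_one hn']
    exact hn1
  have h8 : 0 < 1 / (n : ℝ) := by positivity
  nlinarith [mul_le_mul_of_nonneg_left h7 h8.le]

theorem sumF (n : ℕ) (hn : 0 < n) :
    ∑ j ∈ Finset.range (2 * n), ∑ k ∈ Finset.range (n ^ 2),
      (2 : ℝ) * ((1 / (n : ℝ) ^ 2) * (gw n j ((k : ℝ) / (n : ℝ) ^ 2) + 6 / (n : ℝ) ^ 2)) ≤ (1 / 12 : ℝ) + 30 / (n : ℝ) :=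
  sumF_of_riem (fun m h0 h1 M hM => riem m h0 h1 M hM) n hn

end Vale.Agent.P243
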