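import Vale.Agent.P243.Signed
import Vale.Agent.P243.CoverBlade
import Vale.Agent.P243.CoverGap
import Vale.Agent.P243.SumF
import Vale.Agent.P243.SumA

open MeasureTheory

namespace Vale.Agent.P243

/-- A subinterval containing a given number. -/
theorem exists_cell (M : ℕ) (hM : 0 < M) (q : ℝ) (t : ℝ) (hq : 0 < q) (ht0 : 0 ≤ t)
    (ht1 : t ≤ M / q) : ∃ k : ℕ, k < M ∧ (k : ℝ) / q ≤ t ∧ t ≤ ((k : ℝ) + 1) / q := by
  have hn' : (0 : ℝ) < q := hq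
  have hzn : 0 ≤ t * q := by positivity
  by_cases hlt : ⌊t * q⌋₊ < M
  · refine ⟨⌊t * q⌋₊, hlt, ?_, ?_⟩
    · rw [div_le_iff₀ hn']
      exact Nat.floor_le hzn
    · rw [le_div_iff₀ hn']
      exact (Nat.lt_floor_add_one _).le
  · refine ⟨M - 1, by omega, ?_, ?_⟩
    · have h1 : (M : ℝ) ≤ t * q := by
        have := Nat.floor_le hzn
        have h3 : (M : ℝ) ≤ (⌊t * q⌋₊ : ℝ) := by exact_mod_cast (not_lt.mp hlt)
        linarith
      rw [div_le_iff₀ hn']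
      have : ((M - 1 : ℕ) : ℝ) ≤ M := by exact_mod_cast Nat.sub_le M 1
      linarith
    · have : ((M - 1 : ℕ) : ℝ) + 1 = M := by
        exact_mod_cast Nat.sub_add_cancel hM
      rw [this]
      exact ht1

/-- The index set of one side and one cell. -/
abbrev Idx (n : ℕ) : Type :=
  Bool × (Σ j : Fin (2 * n), (Fin (n * (2 * n + 2 - (j : ℕ)) + 1)) ⊕ (Bool × Fin (n ^ 2)))

/-- The sign. -/
noncomputable def sg (s : Bool) : ℝ := if s then 1 else -1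

theorem sg_cases (s : Bool) : sg s = 1 ∨ sg s = -1 := by
  cases s <;> simp [sg]

/-- The covering set with a given index. -/
def piece (n : ℕ) (s : Bool) (j : ℕ) : (ℕ ⊕ (Bool × ℕ)) → Set E3
  | Sum.inl i => {p | |(sg s * p 0 + al5 n i * p 2 - al5 n i) +
        (sg s * p 1 - (al5 n i + kc n j) * p 2)| ≤ 1 / (2 * (n : ℝ) ^ 2) ∧
      |(sg s * p 0 + al5 n i * p 2 - al5 n i) -
        (sg s * p 1 - (al5 n i + kc n j) * p 2)| ≤ rr n j / (4 * n) + 1 / (2 * (n : ℝ) ^ 2)}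
  | Sum.inr (g, k) => {p | ((k : ℝ) / (n : ℝ) ^ 2 ≤ p 2 ∧ p 2 ≤ ((k : ℝ) + 1) / (n : ℝ) ^ 2) ∧
      (lo n j g ((k : ℝ) / (n : ℝ) ^ 2) ≤ (1 - (k : ℝ) / (n : ℝ) ^ 2) * (sg s * p 1) -
          (k : ℝ) / (n : ℝ) ^ 2 * (sg s * p 0) ∧
        (1 - (k : ℝ) / (n : ℝ) ^ 2) * (sg s * p 1) -
          (k : ℝ) / (n : ℝ) ^ 2 * (sg s * p 0) ≤ hi n j g ((k : ℝ) / (n : ℝ) ^ 2))}

theorem exists_XY (x y z : ℝ) (hz0 : 0 ≤ z) (hz1 : z ≤ 1) (hx : |x| ≤ 1 - z) (hy : |y| ≤ z) :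
    ∃ X Y : ℝ, x = (1 - z) * X ∧ y = z * Y ∧ |X| ≤ 1 ∧ |Y| ≤ 1 := by
  have key : ∀ u w : ℝ, 0 ≤ w → |u| ≤ w → ∃ U : ℝ, u = w * U ∧ |U| ≤ 1 := by
    intro u w hw hu
    rcases hw.eq_or_lt with h0 | h0
    · refine ⟨0, ?_, by simp⟩
      rw [← h0] at hu ⊢
      have := abs_nonpos_iff.mp hu
      simp [this]
    · refine ⟨u / w, (mul_div_cancel₀ u h0.ne').symm, ?_⟩
      rw [abs_div, abs_of_pos h0, div_le_one h0]
      exact hu
  obtain ⟨X, hX, hX1⟩ := key x (1 - z) (by linarith) hx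
  obtain ⟨Y, hY, hY1⟩ := key y z hz0 hy
  exact ⟨X, Y, hX, hY, hX1, hY1⟩

theorem cover_side (n : ℕ) (hn : 0 < n) (s : Bool) (p : E3) (X Y : ℝ) (hz0 : 0 ≤ p 2)
    (hz1 : p 2 ≤ 1) (hx : sg s * p 0 = (1 - p 2) * X) (hy : sg s * p 1 = p 2 * Y)
    (hX : |X| ≤ 1) (hY : |Y| ≤ 1) (hXY : X ≤ Y) :
    ∃ j : ℕ, j < 2 * n ∧ ((∃ i : ℕ, i < n * (2 * n + 2 - j) + 1 ∧
      p ∈ piece n s j (Sum.inl i)) ∨ (∃ (g : Bool) (k : ℕ), k < n ^ 2 ∧
      p ∈ piece n s j (Sum.inr (g, k)))) := by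
  have hn' : (0 : ℝ) < n := by exact_mod_cast hn
  obtain ⟨j, hj, hk1, hk2⟩ := exists_cell (2 * n) (by omega) n (Y - X) hn' (by linarith) (by
    rw [le_div_iff₀ hn']
    push_cast
    have h1 := (abs_le.mp hX).1
    have h2 := (abs_le.mp hY).2
    nlinarith)
  refine ⟨j, hj, ?_⟩
  by_cases hA : 2 * (p 2 * (1 - p 2)) * |Y - X - kc n j| ≤ rr n j / (4 * n)
  · left
    obtain ⟨i, hi, h1, h2⟩ := cover_blade n j hn hj (p 2) X Y hz0 hz1 (abs_le.mp hX).1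
      (abs_le.mp hY).2 hk1 hk2 hA
    refine ⟨i, hi, ?_⟩
    simp only [piece, Set.mem_ofPred_eq, hx, hy]
    exact ⟨h1, h2⟩
  · right
    push Not at hA
    have hM : 0 < n ^ 2 := by positivity
    have hM' : (0 : ℝ) < (n : ℝ) ^ 2 := by positivity
    obtain ⟨k, hk, e1, e2⟩ := exists_cell (n ^ 2) hM ((n : ℝ) ^ 2) (p 2) hM' hz0 (by
      push_cast
      rw [div_self hM'.ne']
      exact hz1)
    have hkn : ((k : ℕ) : ℝ) / (n : ℝ) ^ 2 ≤ 1 := by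
      rw [div_le_one hM']; exact_mod_cast hk.le
    have hk0 : 0 ≤ ((k : ℕ) : ℝ) / (n : ℝ) ^ 2 := by positivity
    have hzh : |p 2 - (k : ℝ) / (n : ℝ) ^ 2| ≤ 1 / (n : ℝ) ^ 2 := by
      have h5 : ((k : ℝ) + 1) / (n : ℝ) ^ 2 = (k : ℝ) / (n : ℝ) ^ 2 + 1 / (n : ℝ) ^ 2 := by ring
      have h6 : 0 ≤ 1 / (n : ℝ) ^ 2 := by positivity
      rw [h5] at e2
      rw [abs_le]
      constructor <;> linarith
    obtain ⟨g, h1, h2⟩ := cover_gap n j hn hj (p 2) X Y ((k : ℝ) / (n : ℝ) ^ 2) hz0 hz1 hX hY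
      hk1 hk2 hk0 hkn hzh hA
    refine ⟨g, k, hk, ?_⟩
    simp only [piece, Set.mem_ofPred_eq, hx, hy]
    exact ⟨⟨e1, e2⟩, h1, h2⟩

theorem rr_nonneg (n j : ℕ) (hn : 0 < n) (hj : j < 2 * n) : 0 ≤ rr n j := by
  have hn' : (0 : ℝ) < n := by exact_mod_cast hn
  have hj' : (j : ℝ) ≤ 2 * n := by exact_mod_cast hj.le
  have h0 : 0 ≤ (j : ℝ) / (2 * n) := by positivity
  have h1 : (j : ℝ) / (2 * n) ≤ 1 := by rw [div_le_one (by positivity)]; exact hj'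
  unfold rr mm
  nlinarith

theorem gw_nonneg (n j : ℕ) (h : ℝ) : 0 ≤ gw n j h := by
  unfold gw
  have : 0 ≤ max 0 (h * (1 - h) - rr n j / 4) := le_max_left _ _
  positivity

theorem hi_sub_lo (n j : ℕ) (g : Bool) (h : ℝ) :
    hi n j g h - lo n j g h = gw n j h + 6 / (n : ℝ) ^ 2 := by
  cases g <;> simp [hi, lo] <;> ring

/-- The cost of a piece. -/
noncomputable def cost (n j : ℕ) : (ℕ ⊕ (Bool × ℕ)) → ℝ
  | Sum.inl _ => (1 / (2 * (n : ℝ) ^ 2)) * (rr n j / (4 * n) + 1 / (2 * (n : ℝ) ^ 2))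
  | Sum.inr (_, k) => (1 / (n : ℝ) ^ 2) * (gw n j ((k : ℝ) / (n : ℝ) ^ 2) + 6 / (n : ℝ) ^ 2)

theorem exists_piece (n : ℕ) (hn : 0 < n) (s : Bool) (j : ℕ) (hj : j < 2 * n)
    (a : ℕ ⊕ (Bool × ℕ)) (ha : ∀ g k, a = Sum.inr (g, k) → k < n ^ 2) :
    ∃ c : Cyl, c.toSet = piece n s j a ∧ ratio c tetra ≤ cost n j a := by
  have hn' : (0 : ℝ) < n := by exact_mod_cast hn
  rcases a with i | ⟨g, k⟩
  · have h0 := rr_nonneg n j hn hj
    obtain ⟨c, hc, hr⟩ := bladeA (sg s) (al5 n i) (al5 n i + kc n j) (1 / (2 * (n : ℝ) ^ 2))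
      (rr n j / (4 * n) + 1 / (2 * (n : ℝ) ^ 2)) (sg_cases s) (by positivity) (by positivity)
    exact ⟨c, hc, hr⟩
  · have hk : k < n ^ 2 := ha g k rfl
    have hM' : (0 : ℝ) < (n : ℝ) ^ 2 := by positivity
    have hkn : ((k : ℕ) : ℝ) / (n : ℝ) ^ 2 ≤ 1 := by
      rw [div_le_one hM']; exact_mod_cast hk.le
    have hk0 : 0 ≤ ((k : ℕ) : ℝ) / (n : ℝ) ^ 2 := by positivity
    have hlh : lo n j g ((k : ℝ) / (n : ℝ) ^ 2) ≤ hi n j g ((k : ℝ) / (n : ℝ) ^ 2) := by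
      have h1 := hi_sub_lo n j g ((k : ℝ) / (n : ℝ) ^ 2)
      have h2 := gw_nonneg n j ((k : ℝ) / (n : ℝ) ^ 2)
      have h3 : 0 ≤ 6 / (n : ℝ) ^ 2 := by positivity
      linarith
    obtain ⟨c, hc, hr⟩ := tubeF2s (sg s) ((k : ℝ) / (n : ℝ) ^ 2) ((k : ℝ) / (n : ℝ) ^ 2)
      (((k : ℝ) + 1) / (n : ℝ) ^ 2) _ _ (sg_cases s) hk0 hkn
      (div_le_div_of_nonneg_right (by linarith) hM'.le) hlh
    refine ⟨c, hc, hr.trans (le_of_eq ?_)⟩
    rw [hi_sub_lo]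
    simp only [cost]
    congr 1
    ring

/-- The index of a piece. -/
def toIdx {n : ℕ} (j : Fin (2 * n)) :
    (Fin (n * (2 * n + 2 - (j : ℕ)) + 1)) ⊕ (Bool × Fin (n ^ 2)) → ℕ ⊕ (Bool × ℕ)
  | Sum.inl i => Sum.inl i
  | Sum.inr (g, k) => Sum.inr (g, (k : ℕ))

theorem exists_covering5 (n : ℕ) (hn : 0 < n) :
    ∃ (m : ℕ) (C : Fin m → Cyl), Covers C tetra ∧ relArea C tetra ≤ 5 / 12 + 80 / n := by
  have hn' : (0 : ℝ) < n := by exact_mod_cast hn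
  have hC : ∀ i : Idx n, ∃ c : Cyl, c.toSet = piece n i.1 i.2.1 (toIdx i.2.1 i.2.2) ∧
      ratio c tetra ≤ cost n i.2.1 (toIdx i.2.1 i.2.2) := by
    rintro ⟨s, j, a⟩
    apply exists_piece n hn s j j.2
    intro g k hk
    rcases a with i | ⟨g', k'⟩
    · simp [toIdx] at hk
    · simp only [toIdx, Sum.inr.injEq, Prod.mk.injEq] at hk
      rw [← hk.2]
      exact k'.2
  choose C hC1 hC2 using hC
  apply exists_fin (ι := Idx n) C
  · intro p hp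
    obtain ⟨hz0, hz1, hx, hy⟩ := hp
    rw [Set.mem_iUnion]
    obtain ⟨X, Y, hX, hY, hX1, hY1⟩ := exists_XY (p 0) (p 1) (p 2) hz0 hz1 hx hy
    have main : ∃ s : Bool, ∃ j : ℕ, j < 2 * n ∧ ((∃ i : ℕ, i < n * (2 * n + 2 - j) + 1 ∧
      p ∈ piece n s j (Sum.inl i)) ∨ (∃ (g : Bool) (k : ℕ), k < n ^ 2 ∧
      p ∈ piece n s j (Sum.inr (g, k)))) := by
      rcases le_total X Y with h | h
      · refine ⟨true, cover_side n hn true p X Y hz0 hz1 ?_ ?_ hX1 hY1 h⟩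
        · simp only [sg, if_true, one_mul]; exact hX
        · simp only [sg, if_true, one_mul]; exact hY
      · refine ⟨false, cover_side n hn false p (-X) (-Y) hz0 hz1 ?_ ?_ (by rwa [abs_neg])
          (by rwa [abs_neg]) (by linarith)⟩
        · simp only [sg, Bool.false_eq_true, if_false]
          rw [hX]; ring
        · simp only [sg, Bool.false_eq_true, if_false]
          rw [hY]; ring
    obtain ⟨s, j, hj, (⟨i, hi, h1⟩ | ⟨g, k, hk, h1⟩)⟩ := main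
    · refine ⟨(s, ⟨⟨j, hj⟩, Sum.inl ⟨i, hi⟩⟩), ?_⟩
      rw [hC1]
      exact h1
    · refine ⟨(s, ⟨⟨j, hj⟩, Sum.inr (g, ⟨k, hk⟩)⟩), ?_⟩
      rw [hC1]
      exact h1
  · have hsum : ∑ i : Idx n, ratio (C i) tetra ≤
        ∑ i : Idx n, cost n i.2.1 (toIdx i.2.1 i.2.2) := Finset.sum_le_sum fun i _ => hC2 i
    refine hsum.trans ?_
    rw [Fintype.sum_prod_type]
    simp only [Finset.sum_const, Finset.card_univ, Fintype.card_bool]
    rw [Fintype.sum_sigma]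
    have hj : ∀ j : Fin (2 * n), ∑ a : (Fin (n * (2 * n + 2 - (j : ℕ)) + 1)) ⊕
        (Bool × Fin (n ^ 2)), cost n j (toIdx j a) =
        (((n * (2 * n + 2 - (j : ℕ)) + 1 : ℕ) : ℝ) *
          ((1 / (2 * (n : ℝ) ^ 2)) * (rr n j / (4 * n) + 1 / (2 * (n : ℝ) ^ 2)))) +
        ∑ k ∈ Finset.range (n ^ 2), (2 : ℝ) * ((1 / (n : ℝ) ^ 2) *
          (gw n j ((k : ℝ) / (n : ℝ) ^ 2) + 6 / (n : ℝ) ^ 2)) := by
      intro j
      rw [Fintype.sum_sum_type]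
      congr 1
      · simp only [toIdx, cost, Finset.sum_const, Finset.card_univ, Fintype.card_fin,
          nsmul_eq_mul]
      · rw [Fintype.sum_prod_type]
        simp only [toIdx, cost, Finset.sum_const, Finset.card_univ, Fintype.card_bool,
          nsmul_eq_mul]
        rw [Fin.sum_univ_eq_sum_range (fun k : ℕ => (1 / (n : ℝ) ^ 2) *
          (gw n j ((k : ℝ) / (n : ℝ) ^ 2) + 6 / (n : ℝ) ^ 2)) (n ^ 2), Finset.mul_sum]
        push_cast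
        rfl
    simp only [hj]
    rw [Finset.sum_add_distrib]
    rw [Fin.sum_univ_eq_sum_range (fun j : ℕ => (((n * (2 * n + 2 - (j : ℕ)) + 1 : ℕ) : ℝ) *
          ((1 / (2 * (n : ℝ) ^ 2)) * (rr n j / (4 * n) + 1 / (2 * (n : ℝ) ^ 2))))) (2 * n)]
    rw [Fin.sum_univ_eq_sum_range (fun j : ℕ => ∑ k ∈ Finset.range (n ^ 2), (2 : ℝ) *
      ((1 / (n : ℝ) ^ 2) * (gw n j ((k : ℝ) / (n : ℝ) ^ 2) + 6 / (n : ℝ) ^ 2))) (2 * n)]
    have hA := sumA n hn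
    have hF := sumF n hn
    have e1 : (80 : ℝ) / n = 2 * (10 / n + 30 / n) := by ring
    rw [nsmul_eq_mul, e1]
    push_cast
    push_cast at hA hF
    linarith

end Vale.Agent.P243
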