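import Vale.Agent.P243.Tubes2

open MeasureTheory

namespace Vale.Agent.P243

/-- The blade with a sign. -/
theorem bladeA (s α β a b : ℝ) (hs : s = 1 ∨ s = -1) (ha : 0 < a) (hb : 0 < b) :
    ∃ c : Cyl, c.toSet = {p | |(s * p 0 + α * p 2 - α) + (s * p 1 - β * p 2)| ≤ a ∧
      |(s * p 0 + α * p 2 - α) - (s * p 1 - β * p 2)| ≤ b} ∧ ratio c tetra ≤ a * b := by
  obtain ⟨c, hc, hr⟩ := tubeB (s * α) (s * β) (2 * a) b (by linarith) hb
  refine ⟨c, ?_, hr.trans (le_of_eq (by ring))⟩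
  rw [hc]
  ext p
  simp only [Set.mem_ofPred_eq]
  rw [show 2 * a / 2 = a by ring]
  rcases hs with rfl | rfl
  · have e1 : (p 0 - (1 - p 2) * (1 * α)) + (p 1 - p 2 * (1 * β)) =
        (1 * p 0 + α * p 2 - α) + (1 * p 1 - β * p 2) := by ring
    have e2 : (p 0 - (1 - p 2) * (1 * α)) - (p 1 - p 2 * (1 * β)) =
        (1 * p 0 + α * p 2 - α) - (1 * p 1 - β * p 2) := by ring
    rw [e1, e2]
  · have e1 : (p 0 - (1 - p 2) * (-1 * α)) + (p 1 - p 2 * (-1 * β)) =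
        -((-1 * p 0 + α * p 2 - α) + (-1 * p 1 - β * p 2)) := by ring
    have e2 : (p 0 - (1 - p 2) * (-1 * α)) - (p 1 - p 2 * (-1 * β)) =
        -((-1 * p 0 + α * p 2 - α) - (-1 * p 1 - β * p 2)) := by ring
    rw [e1, e2, abs_neg, abs_neg]

/-- The horizontal tube with a sign. -/
theorem tubeF2s (s h a b w1 w2 : ℝ) (hs : s = 1 ∨ s = -1) (h0 : 0 ≤ h) (h1 : h ≤ 1)
    (hab : a ≤ b) (hw : w1 ≤ w2) :
    ∃ c : Cyl, c.toSet = {p | (a ≤ p 2 ∧ p 2 ≤ b) ∧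
      (w1 ≤ (1 - h) * (s * p 1) - h * (s * p 0) ∧ (1 - h) * (s * p 1) - h * (s * p 0) ≤ w2)} ∧
      ratio c tetra ≤ (b - a) * (w2 - w1) := by
  rcases hs with rfl | rfl
  · obtain ⟨c, hc, hr⟩ := tubeF2 h a b w1 w2 h0 h1 hab hw
    refine ⟨c, ?_, hr⟩
    rw [hc]
    simp only [one_mul]
  · obtain ⟨c, hc, hr⟩ := tubeF2 h a b (-w2) (-w1) h0 h1 hab (by linarith)
    refine ⟨c, ?_, hr.trans (le_of_eq (by ring))⟩
    rw [hc]
    ext p
    simp only [Set.mem_ofPred_eq]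
    constructor
    · rintro ⟨h3, h4, h5⟩
      exact ⟨h3, by linarith, by linarith⟩
    · rintro ⟨h3, h4, h5⟩
      exact ⟨h3, by linarith, by linarith⟩

end Vale.Agent.P243
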