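import Vale.Agent.P243.Defs

open MeasureTheory

namespace Vale.Agent.P243

theorem mem_toSet_iff (c : Cyl) (x : E3) :
    x ∈ c.toSet ↔ (perp c.dir).orthogonalProjectionOnto x ∈ c.base := by
  unfold Cyl.toSet
  simp only [Set.mem_ofPred_eq]
  constructor
  · rintro ⟨b, hb, t, rfl⟩
    have h1 : (perp c.dir).orthogonalProjectionOnto ((b : E3) + t • c.dir) = b := by
      rw [map_add, Submodule.orthogonalProjectionOnto_mem_subspace_eq_self]
      have h2 : (perp c.dir).orthogonalProjectionOnto (t • c.dir) = 0 := by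
        rw [Submodule.orthogonalProjectionOnto_eq_zero_iff]
        rw [Submodule.orthogonal_orthogonal]
        exact Submodule.smul_mem _ _ (Submodule.mem_span_singleton_self _)
      rw [h2, add_zero]
    rw [h1]; exact hb
  · intro h
    have h3 : x - ((perp c.dir).orthogonalProjectionOnto x : E3) ∈ Submodule.span ℝ {c.dir} := by
      have := Submodule.sub_starProjection_mem_orthogonal (K := perp c.dir) x
      rwa [Submodule.orthogonal_orthogonal] at this
    obtain ⟨t, ht⟩ := Submodule.mem_span_singleton.mp h3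
    exact ⟨_, h, t, by rw [ht]; abel⟩

theorem exists_cyl (u : E3) (hu : u ≠ 0) (L : E3 →ₗ[ℝ] ℝ × ℝ) (hL : Function.Surjective L)
    (hLu : L u = 0) (S : Set (ℝ × ℝ)) (hS : MeasurableSet S) (hfin : volume S < ⊤) :
    ∃ c : Cyl, c.toSet = {x | L x ∈ S} ∧ ∀ K : Set E3,
      ratio c K = (volume S).toReal / (volume (L '' K)).toReal := by
  have hn : ‖u‖ ≠ 0 := norm_ne_zero_iff.mpr hu
  set v : E3 := ‖u‖⁻¹ • u with hv
  have hv1 : ‖v‖ = 1 := by
    rw [hv, norm_smul, norm_inv, norm_norm, inv_mul_cancel₀ hn]
  have hLv : L v = 0 := by rw [hv, map_smul, hLu, smul_zero]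
  have hproj : ∀ x : E3, L (((perp v).orthogonalProjectionOnto x : perp v) : E3) = L x := by
    intro x
    have h3 : x - ((perp v).orthogonalProjectionOnto x : E3) ∈ Submodule.span ℝ {v} := by
      have := Submodule.sub_starProjection_mem_orthogonal (K := perp v) x
      rwa [Submodule.orthogonal_orthogonal] at this
    obtain ⟨t, ht⟩ := Submodule.mem_span_singleton.mp h3
    have h4 : L (x - ((perp v).orthogonalProjectionOnto x : E3)) = 0 := by
      rw [← ht, map_smul, hLv, smul_zero]
    rw [map_sub, sub_eq_zero] at h4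
    exact h4.symm
  let e0 : perp v →ₗ[ℝ] ℝ × ℝ := L ∘ₗ (perp v).subtype
  have hsurj : Function.Surjective e0 := by
    intro q
    obtain ⟨x, hx⟩ := hL q
    exact ⟨(perp v).orthogonalProjectionOnto x, by
      change L (((perp v).orthogonalProjectionOnto x : perp v) : E3) = q
      rw [hproj, hx]⟩
  have hfr : Module.finrank ℝ (perp v) = 2 := by
    have : Fact (Module.finrank ℝ E3 = 2 + 1) := ⟨by simp⟩
    have hv0 : v ≠ 0 := by
      intro h; rw [h, norm_zero] at hv1; exact zero_ne_one hv1
    exact Submodule.finrank_orthogonal_span_singleton hv0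
  have hinj : Function.Injective e0 := by
    rw [LinearMap.injective_iff_surjective_of_finrank_eq_finrank]
    · exact hsurj
    · rw [hfr]; simp
  let e1 : perp v ≃ₗ[ℝ] ℝ × ℝ := LinearEquiv.ofBijective e0 ⟨hinj, hsurj⟩
  let e : perp v ≃L[ℝ] ℝ × ℝ := e1.toContinuousLinearEquiv
  have heval : ∀ y : perp v, e y = L (y : E3) := fun y => rfl
  have hmeas : Measurable e := e.continuous.measurable
  have hH : (Measure.map e (volume : Measure (perp v))).IsAddHaarMeasure :=
    e.isAddHaarMeasure_map volume
  let c : ENNReal := (Measure.addHaarScalarFactor (Measure.map e (volume : Measure (perp v))) (volume : Measure (ℝ × ℝ)))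
  have hc0 : c ≠ 0 := by
    have := Measure.addHaarScalarFactor_pos_of_isAddHaarMeasure
      (Measure.map e (volume : Measure (perp v))) (volume : Measure (ℝ × ℝ))
    exact ENNReal.coe_ne_zero.mpr this.ne'
  have hc1 : c ≠ ⊤ := ENNReal.coe_ne_top
  have hmap : Measure.map e (volume : Measure (perp v)) = c • (volume : Measure (ℝ × ℝ)) :=
    Measure.isAddLeftInvariant_eq_smul _ _
  have hvol : ∀ T : Set (ℝ × ℝ), volume (e ⁻¹' T) = c * volume T := by
    intro T
    have h5 : Measure.map e (volume : Measure (perp v)) T = volume (e ⁻¹' T) :=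
      (e.toHomeomorph.toMeasurableEquiv).map_apply T
    rw [← h5, hmap]
    rfl
  refine ⟨⟨v, hv1, e ⁻¹' S, (hmeas hS).nullMeasurableSet, ?_⟩, ?_, ?_⟩
  · change volume (e ⁻¹' S) < ⊤
    rw [hvol]; exact ENNReal.mul_lt_top hc1.lt_top hfin
  · ext x
    rw [mem_toSet_iff]
    simp only [Set.mem_preimage, Set.mem_ofPred_eq]
    rw [heval, hproj]
  · intro K
    have hsh : shadow v K = e ⁻¹' (L '' K) := by
      ext y
      unfold shadow proj
      simp only [Set.mem_image, Set.mem_preimage]
      constructor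
      · rintro ⟨x, hx, rfl⟩
        exact ⟨x, hx, by rw [heval, hproj]⟩
      · rintro ⟨x, hx, h⟩
        refine ⟨x, hx, e.injective ?_⟩
        rw [← h, heval, hproj]
    have hA : (volume (e ⁻¹' S)).toReal = c.toReal * (volume S).toReal := by
      rw [hvol, ENNReal.toReal_mul]
    have hB : (volume (shadow v K)).toReal = c.toReal * (volume (L '' K)).toReal := by
      rw [hsh, hvol, ENNReal.toReal_mul]
    change (volume (e ⁻¹' S)).toReal / (volume (shadow v K)).toReal = _
    rw [hA, hB]
    exact mul_div_mul_left _ _ (ENNReal.toReal_ne_zero.mpr ⟨hc0, hc1⟩)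

end Vale.Agent.P243
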