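import Vale.Agent.P243.Tubes2
import Vale.Agent.P243.Defs5

/-!
# P243: horizontal slab tubes, with a sign
-/

open MeasureTheory

namespace Vale.Agent.P243

/-- A horizontal slab tube with an arbitrary interval, reflected if `s = -1`. -/
theorem tubeF2s (s h a b w1 w2 : ℝ) (hs : s = 1 ∨ s = -1) (h0 : 0 ≤ h) (h1 : h ≤ 1)
    (hab : a ≤ b) (hw : w1 ≤ w2) :
    ∃ c : Cyl, c.toSet = {p | (a ≤ p 2 ∧ p 2 ≤ b) ∧
      (w1 ≤ (1 - h) * (s * p 1) - h * (s * p 0) ∧ (1 - h) * (s * p 1) - h * (s * p 0) ≤ w2)} ∧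
      ratio c tetra ≤ (b - a) * (w2 - w1) := by
  rcases hs with rfl | rfl
  · obtain ⟨c, hc, hr⟩ := tubeF2 h a b w1 w2 h0 h1 hab hw
    refine ⟨c, ?_, hr⟩
    rw [hc]
    simp only [one_mul]
  · obtain ⟨c, hc, hr⟩ := tubeF2 h a b (-w2) (-w1) h0 h1 hab (by linarith)
    refine ⟨c, ?_, ?_⟩
    · rw [hc]
      ext p
      simp only [Set.mem_ofPred_eq]
      constructor
      · rintro ⟨h1, h2, h3⟩
        exact ⟨h1, by linarith, by linarith⟩
      · rintro ⟨h1, h2, h3⟩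
        exact ⟨h1, by linarith, by linarith⟩
    · refine hr.trans (le_of_eq ?_)
      ring

end Vale.Agent.P243
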