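import Vale.Agent.P243.Transfer
import Vale.Agent.P243.Body
import Vale.Agent.P243.Areas

open MeasureTheory

namespace Vale.Agent.P243

/-- The point of three-space with the given coordinates. -/
noncomputable def pt (x y z : ℝ) : E3 := WithLp.toLp 2 ![x, y, z]

@[simp] theorem pt_0 (x y z : ℝ) : pt x y z 0 = x := rfl
@[simp] theorem pt_1 (x y z : ℝ) : pt x y z 1 = y := rfl
@[simp] theorem pt_2 (x y z : ℝ) : pt x y z 2 = z := rfl

/-- Coordinates transverse to the line joining the points `(α, 0, 0)` and `(0, β, 1)`. -/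
def LA (α β : ℝ) : E3 →ₗ[ℝ] ℝ × ℝ where
  toFun p := (p 1 - β * p 2, p 0 + α * p 2)
  map_add' p q := by
    simp only [PiLp.add_apply, Prod.mk_add_mk, Prod.mk.injEq]
    constructor <;> ring
  map_smul' a p := by
    simp only [PiLp.smul_apply, smul_eq_mul, RingHom.id_apply, Prod.smul_mk, Prod.mk.injEq]
    constructor <;> ring

/-- Coordinates transverse to the horizontal direction `(1 - h, h, 0)`. -/
def LF (h : ℝ) : E3 →ₗ[ℝ] ℝ × ℝ where
  toFun p := (p 2, (1 - h) * p 1 - h * p 0)
  map_add' p q := by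
    simp only [PiLp.add_apply, Prod.mk_add_mk, Prod.mk.injEq]
    exact ⟨trivial, by ring⟩
  map_smul' a p := by
    simp only [PiLp.smul_apply, smul_eq_mul, RingHom.id_apply, Prod.smul_mk, Prod.mk.injEq]
    exact ⟨trivial, by ring⟩

theorem LA_apply (α β : ℝ) (p : E3) : LA α β p = (p 1 - β * p 2, p 0 + α * p 2) := rfl

theorem LF_apply (h : ℝ) (p : E3) : LF h p = (p 2, (1 - h) * p 1 - h * p 0) := rfl

theorem continuous_LA (α β : ℝ) : Continuous (LA α β) := (LA α β).continuous_of_finiteDimensional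

theorem continuous_LF (h : ℝ) : Continuous (LF h) := (LF h).continuous_of_finiteDimensional

theorem shadowA_ge (α β : ℝ) (h1 : -1 ≤ β) (h2 : β ≤ 1) :
    2 ≤ (volume (LA α β '' tetra)).toReal := by
  set R1 := regionBetween (fun t => α * (t / (1 - β)) - (1 - t / (1 - β)))
      (fun t => α * (t / (1 - β)) + (1 - t / (1 - β))) (Set.Ioo 0 (1 - β)) with hR1
  set R2 := regionBetween (fun t => α * (-t / (1 + β)) - (1 - -t / (1 + β)))
      (fun t => α * (-t / (1 + β)) + (1 - -t / (1 + β))) (Set.Ioo (-(1 + β)) 0) with hR2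
  have hm2 : MeasurableSet R2 :=
    measurableSet_regionBetween (by fun_prop) (by fun_prop) measurableSet_Ioo
  have hd : Disjoint R1 R2 := by
    rw [Set.disjoint_left]
    rintro ⟨t, s⟩ ⟨⟨a, _⟩, _⟩ ⟨⟨_, b⟩, _⟩
    simp only at a b
    linarith
  have hsub : R1 ∪ R2 ⊆ LA α β '' tetra := by
    rintro ⟨t, s⟩ (⟨⟨a, b⟩, c, d⟩ | ⟨⟨a, b⟩, c, d⟩)
    · simp only at a b c d
      have hp : 0 < 1 - β := by linarith
      have ht0 : 0 < t / (1 - β) := div_pos a hp
      have ht1 : t / (1 - β) < 1 := by rw [div_lt_one hp]; exact b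
      have ht : t / (1 - β) * (1 - β) = t := div_mul_cancel₀ t hp.ne'
      set z := t / (1 - β)
      refine ⟨pt (s - α * z) z z, ⟨?_, ?_, ?_, ?_⟩, ?_⟩
      · simp only [pt_2]; exact ht0.le
      · simp only [pt_2]; exact ht1.le
      · simp only [pt_0, pt_2]
        rw [abs_le]; constructor <;> linarith
      · simp only [pt_1, pt_2]
        rw [abs_of_pos ht0]
      · rw [LA_apply]
        simp only [pt_0, pt_1, pt_2, Prod.mk.injEq]
        constructor
        · rw [← ht]; ring
        · ring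
    · simp only at a b c d
      have hp : 0 < 1 + β := by linarith
      have ht0 : 0 < -t / (1 + β) := div_pos (by linarith) hp
      have ht1 : -t / (1 + β) < 1 := by rw [div_lt_one hp]; linarith
      have ht : -t / (1 + β) * (1 + β) = -t := div_mul_cancel₀ (-t) hp.ne'
      set z := -t / (1 + β)
      refine ⟨pt (s - α * z) (-z) z, ⟨?_, ?_, ?_, ?_⟩, ?_⟩
      · simp only [pt_2]; exact ht0.le
      · simp only [pt_2]; exact ht1.le
      · simp only [pt_0, pt_2]
        rw [abs_le]; constructor <;> linarith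
      · simp only [pt_1, pt_2]
        rw [abs_neg, abs_of_pos ht0]
      · rw [LA_apply]
        simp only [pt_0, pt_1, pt_2, Prod.mk.injEq]
        constructor
        · linarith
        · ring
  have hfin : volume (LA α β '' tetra) ≠ ⊤ :=
    ((tetra_compact.image (continuous_LA α β)).measure_lt_top).ne
  have hvol : volume (R1 ∪ R2) = 2 := by
    rw [measure_union hd hm2, hR1, hR2, tri_up α (1 - β) (by linarith),
      tri_down α (1 + β) (by linarith), ← ENNReal.ofReal_add (by linarith) (by linarith)]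
    rw [show (1 - β + (1 + β) : ℝ) = 2 by ring]
    simp
  have hle := ENNReal.toReal_mono hfin (measure_mono hsub)
  rw [hvol] at hle
  simpa using hle

theorem shadowF_ge (h : ℝ) (h0 : 0 ≤ h) (h1 : h ≤ 1) :
    1 ≤ (volume (LF h '' tetra)).toReal := by
  have hsub : regionBetween (fun z => -(h + (1 - 2 * h) * z))
      (fun z => h + (1 - 2 * h) * z) (Set.Ioo 0 1) ⊆ LF h '' tetra := by
    rintro ⟨z, w⟩ ⟨⟨a, b⟩, c, d⟩
    simp only at a b c d
    have hD : 0 < h + (1 - 2 * h) * z := by linarith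
    have hl : w / (h + (1 - 2 * h) * z) * (h + (1 - 2 * h) * z) = w := div_mul_cancel₀ w hD.ne'
    have hl1 : w / (h + (1 - 2 * h) * z) < 1 := by rw [div_lt_one hD]; exact d
    have hl2 : -1 < w / (h + (1 - 2 * h) * z) := by rw [lt_div_iff₀ hD]; linarith
    set l := w / (h + (1 - 2 * h) * z)
    refine ⟨pt (-(l * (1 - z))) (l * z) z, ⟨?_, ?_, ?_, ?_⟩, ?_⟩
    · simp only [pt_2]; exact a.le
    · simp only [pt_2]; exact b.le
    · simp only [pt_0, pt_2]
      rw [abs_neg, abs_mul, abs_of_pos (by linarith : 0 < 1 - z)]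
      have : |l| ≤ 1 := abs_le.mpr ⟨hl2.le, hl1.le⟩
      nlinarith
    · simp only [pt_1, pt_2]
      rw [abs_mul, abs_of_pos a]
      have : |l| ≤ 1 := abs_le.mpr ⟨hl2.le, hl1.le⟩
      nlinarith
    · rw [LF_apply]
      simp only [pt_0, pt_1, pt_2, Prod.mk.injEq]
      refine ⟨trivial, ?_⟩
      rw [← hl]; ring
  have hfin : volume (LF h '' tetra) ≠ ⊤ :=
    ((tetra_compact.image (continuous_LF h)).measure_lt_top).ne
  have hle := ENNReal.toReal_mono hfin (measure_mono hsub)
  rw [trap_area h h0 h1] at hle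
  simpa using hle

/-- A thin tube around the segment joining `(α, 0, 0)` and `(0, β, 1)`. -/
theorem tubeA (α β r : ℝ) (h1 : -1 ≤ β) (h2 : β ≤ 1) (hr : 0 < r) :
    ∃ c : Cyl, c.toSet = {p | |p 1 - β * p 2| + |p 0 + α * p 2 - α| < r} ∧
      ratio c tetra ≤ r ^ 2 := by
  have hS : MeasurableSet {q : ℝ × ℝ | |q.1| + |q.2 - α| < r} :=
    (isOpen_lt (by fun_prop) continuous_const).measurableSet
  obtain ⟨c, hc, hratio⟩ := exists_cyl (pt (-α) β 1)
    (fun h => by
      have := congrArg (fun p : E3 => p 2) h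
      simp at this)
    (LA α β)
    (fun q => ⟨pt q.2 q.1 0, by rw [LA_apply]; simp⟩)
    (by rw [LA_apply]; simp)
    {q | |q.1| + |q.2 - α| < r} hS (by rw [diamond_area α r hr]; exact ENNReal.ofReal_lt_top)
  refine ⟨c, ?_, ?_⟩
  · rw [hc]; rfl
  · rw [hratio tetra, diamond_area α r hr, ENNReal.toReal_ofReal (by positivity)]
    have hs := shadowA_ge α β h1 h2
    rw [div_le_iff₀ (by linarith)]
    nlinarith [sq_nonneg r]

/-- A horizontal slab tube. -/
theorem tubeF (h a b W : ℝ) (h0 : 0 ≤ h) (h1 : h ≤ 1) (hab : a ≤ b) (hW : 0 ≤ W) :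
    ∃ c : Cyl, c.toSet = {p | (a ≤ p 2 ∧ p 2 ≤ b) ∧ |(1 - h) * p 1 - h * p 0| ≤ W} ∧
      ratio c tetra ≤ (b - a) * (2 * W) := by
  have hS : MeasurableSet (Set.Icc a b ×ˢ Set.Icc (-W) W) :=
    measurableSet_Icc.prod measurableSet_Icc
  have hvol : (volume : Measure (ℝ × ℝ)) (Set.Icc a b ×ˢ Set.Icc (-W) W) =
      ENNReal.ofReal ((b - a) * (2 * W)) := by
    rw [Measure.volume_eq_prod, Measure.prod_prod, Real.volume_Icc, Real.volume_Icc,
      ← ENNReal.ofReal_mul (by linarith)]
    congr 1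
    ring
  obtain ⟨c, hc, hratio⟩ := exists_cyl (pt (1 - h) h 0)
    (fun hh => by
      have e0 := congrArg (fun p : E3 => p 0) hh
      have e1 := congrArg (fun p : E3 => p 1) hh
      simp at e0 e1
      linarith)
    (LF h)
    (fun q => by
      have hD : 0 < h ^ 2 + (1 - h) ^ 2 := by nlinarith [sq_nonneg (h - 1 / 2)]
      refine ⟨pt (-h * (q.2 / (h ^ 2 + (1 - h) ^ 2))) ((1 - h) * (q.2 / (h ^ 2 + (1 - h) ^ 2))) q.1,
        ?_⟩
      rw [LF_apply]
      simp only [pt_0, pt_1, pt_2]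
      ext
      · rfl
      · simp only
        field_simp
        ring)
    (by rw [LF_apply]; simp; ring)
    (Set.Icc a b ×ˢ Set.Icc (-W) W) hS (by rw [hvol]; exact ENNReal.ofReal_lt_top)
  refine ⟨c, ?_, ?_⟩
  · rw [hc]
    ext p
    simp only [Set.mem_ofPred_eq, LF_apply, Set.mem_prod, Set.mem_Icc, abs_le]
  · have hnn : 0 ≤ (b - a) * (2 * W) := mul_nonneg (by linarith) (by linarith)
    rw [hratio tetra, hvol, ENNReal.toReal_ofReal hnn]
    have hs := shadowF_ge h h0 h1
    exact div_le_self hnn hs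

end Vale.Agent.P243
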