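import Vale.Agent.P243.Tubes

/-!
# P243: blades and asymmetric slab tubes
-/

open MeasureTheory

namespace Vale.Agent.P243

/-- shadow of the tetrahedron, direction `(-α, β, 1)` with `β ≥ 1` -/
theorem shadowA_ge_hi (α β : ℝ) (h1 : 1 ≤ β) : 2 ≤ (volume (LA α β '' tetra)).toReal := by
  set R2 := regionBetween (fun t => α * (-t / (1 + β)) - (1 - -t / (1 + β)))
      (fun t => α * (-t / (1 + β)) + (1 - -t / (1 + β))) (Set.Ioo (-(1 + β)) 0) with hR2
  have hsub : R2 ⊆ LA α β '' tetra := by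
    rintro ⟨t, s⟩ ⟨⟨a, b⟩, c, d⟩
    simp only at a b c d
    have hp : 0 < 1 + β := by linarith
    have ht0 : 0 < -t / (1 + β) := div_pos (by linarith) hp
    have ht1 : -t / (1 + β) < 1 := by rw [div_lt_one hp]; linarith
    have ht : -t / (1 + β) * (1 + β) = -t := div_mul_cancel₀ (-t) hp.ne'
    set z := -t / (1 + β)
    refine ⟨pt (s - α * z) (-z) z, ⟨?_, ?_, ?_, ?_⟩, ?_⟩
    · simp only [pt_2]; exact ht0.le
    · simp only [pt_2]; exact ht1.le
    · simp only [pt_0, pt_2]
      rw [abs_le]; constructor <;> linarith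
    · simp only [pt_1, pt_2]
      rw [abs_neg, abs_of_pos ht0]
    · rw [LA_apply]
      simp only [pt_0, pt_1, pt_2, Prod.mk.injEq]
      constructor
      · linarith
      · ring
  have hfin : volume (LA α β '' tetra) ≠ ⊤ :=
    ((tetra_compact.image (continuous_LA α β)).measure_lt_top).ne
  have hle := ENNReal.toReal_mono hfin (measure_mono hsub)
  rw [hR2, tri_down α (1 + β) (by linarith), ENNReal.toReal_ofReal (by linarith)] at hle
  linarith

/-- shadow of the tetrahedron, direction `(-α, β, 1)` with `β ≤ -1` -/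
theorem shadowA_ge_lo (α β : ℝ) (h1 : β ≤ -1) : 2 ≤ (volume (LA α β '' tetra)).toReal := by
  set R1 := regionBetween (fun t => α * (t / (1 - β)) - (1 - t / (1 - β)))
      (fun t => α * (t / (1 - β)) + (1 - t / (1 - β))) (Set.Ioo 0 (1 - β)) with hR1
  have hsub : R1 ⊆ LA α β '' tetra := by
    rintro ⟨t, s⟩ ⟨⟨a, b⟩, c, d⟩
    simp only at a b c d
    have hp : 0 < 1 - β := by linarith
    have ht0 : 0 < t / (1 - β) := div_pos a hp
    have ht1 : t / (1 - β) < 1 := by rw [div_lt_one hp]; exact b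
    have ht : t / (1 - β) * (1 - β) = t := div_mul_cancel₀ t hp.ne'
    set z := t / (1 - β)
    refine ⟨pt (s - α * z) z z, ⟨?_, ?_, ?_, ?_⟩, ?_⟩
    · simp only [pt_2]; exact ht0.le
    · simp only [pt_2]; exact ht1.le
    · simp only [pt_0, pt_2]
      rw [abs_le]; constructor <;> linarith
    · simp only [pt_1, pt_2]
      rw [abs_of_pos ht0]
    · rw [LA_apply]
      simp only [pt_0, pt_1, pt_2, Prod.mk.injEq]
      constructor
      · rw [← ht]; ring
      · ring
  have hfin : volume (LA α β '' tetra) ≠ ⊤ :=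
    ((tetra_compact.image (continuous_LA α β)).measure_lt_top).ne
  have hle := ENNReal.toReal_mono hfin (measure_mono hsub)
  rw [hR1, tri_up α (1 - β) (by linarith), ENNReal.toReal_ofReal (by linarith)] at hle
  linarith

theorem shadowA_ge_all (α β : ℝ) : 2 ≤ (volume (LA α β '' tetra)).toReal := by
  rcases le_total β (-1) with h | h
  · exact shadowA_ge_lo α β h
  · rcases le_total 1 β with h' | h'
    · exact shadowA_ge_hi α β h'
    · exact shadowA_ge α β h h'

theorem para_meas (al e l : ℝ) :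
    MeasurableSet {q : ℝ × ℝ | |q.2 - al + q.1| ≤ e ∧ |q.2 - al - q.1| ≤ l} := by
  have h1 : IsClosed {q : ℝ × ℝ | |q.2 - al + q.1| ≤ e} :=
    isClosed_le (by fun_prop) continuous_const
  have h2 : IsClosed {q : ℝ × ℝ | |q.2 - al - q.1| ≤ l} :=
    isClosed_le (by fun_prop) continuous_const
  exact (h1.inter h2).measurableSet

/-- area of the parallelogram -/
theorem para_area (al e l : ℝ) (he : 0 < e) (hl : 0 < l) :
    (volume : Measure (ℝ × ℝ)) {q | |q.2 - al + q.1| ≤ e ∧ |q.2 - al - q.1| ≤ l} ≤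
      ENNReal.ofReal (2 * e * l) := by
  set Q' : Set (ℝ × ℝ) := {q | |q.2 - al| ≤ e ∧ |q.2 - al - 2 * q.1| ≤ l} with hQ'
  have hm : MeasurableSet Q' := by
    have h1 : IsClosed {q : ℝ × ℝ | |q.2 - al| ≤ e} :=
      isClosed_le (by fun_prop) continuous_const
    have h2 : IsClosed {q : ℝ × ℝ | |q.2 - al - 2 * q.1| ≤ l} :=
      isClosed_le (by fun_prop) continuous_const
    exact (h1.inter h2).measurableSet
  have hpre : {q : ℝ × ℝ | |q.2 - al + q.1| ≤ e ∧ |q.2 - al - q.1| ≤ l} =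
      (fun z : ℝ × ℝ => (z.1, z.1 + z.2)) ⁻¹' Q' := by
    ext ⟨t, s⟩
    rw [hQ']
    simp only [Set.mem_ofPred_eq, Set.mem_preimage]
    have e1 : s - al + t = t + s - al := by ring
    have e2 : s - al - t = t + s - al - 2 * t := by ring
    rw [e1, e2]
  rw [hpre, Measure.volume_eq_prod,
    (measurePreserving_prod_add (volume : Measure ℝ) (volume : Measure ℝ)).measure_preimage
      hm.nullMeasurableSet, Measure.prod_apply_symm hm]
  have hsl : ∀ w : ℝ, volume ((fun t : ℝ => (t, w)) ⁻¹' Q') ≤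
      (Set.Icc (al - e) (al + e)).indicator (fun _ => ENNReal.ofReal l) w := by
    intro w
    by_cases hw : w ∈ Set.Icc (al - e) (al + e)
    · rw [Set.indicator_of_mem hw]
      have hsub : (fun t : ℝ => (t, w)) ⁻¹' Q' ⊆
          Set.Icc ((w - al - l) / 2) ((w - al + l) / 2) := by
        intro t ht
        have ht2 : |w - al - 2 * t| ≤ l := ht.2
        rw [abs_le] at ht2
        constructor <;> linarith [ht2.1, ht2.2]
      refine (measure_mono hsub).trans (le_of_eq ?_)
      rw [Real.volume_Icc]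
      congr 1
      ring
    · rw [Set.indicator_of_notMem hw]
      have hemp : (fun t : ℝ => (t, w)) ⁻¹' Q' = ∅ := by
        rw [Set.eq_empty_iff_forall_notMem]
        intro t ht
        have ht1 : |w - al| ≤ e := ht.1
        rw [abs_le] at ht1
        exact hw ⟨by linarith [ht1.1], by linarith [ht1.2]⟩
      rw [hemp, measure_empty]
  refine (lintegral_mono hsl).trans (le_of_eq ?_)
  rw [lintegral_indicator measurableSet_Icc, setLIntegral_const, Real.volume_Icc,
    ← ENNReal.ofReal_mul hl.le]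
  congr 1
  ring

/-- A blade around the segment joining `(α, 0, 0)` and `(0, β, 1)`. -/
theorem tubeB (α β η l : ℝ) (hη : 0 < η) (hl : 0 < l) :
    ∃ c : Cyl, c.toSet = {p | |(p 0 - (1 - p 2) * α) + (p 1 - p 2 * β)| ≤ η / 2 ∧
        |(p 0 - (1 - p 2) * α) - (p 1 - p 2 * β)| ≤ l} ∧
      ratio c tetra ≤ η * l / 2 := by
  have hvol := para_area α (η / 2) l (by linarith) hl
  have hvol' : volume {q : ℝ × ℝ | |q.2 - α + q.1| ≤ η / 2 ∧ |q.2 - α - q.1| ≤ l} < ⊤ :=
    lt_of_le_of_lt hvol ENNReal.ofReal_lt_top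
  obtain ⟨c, hc, hratio⟩ := exists_cyl (pt (-α) β 1)
    (fun h => by
      have := congrArg (fun p : E3 => p 2) h
      simp at this)
    (LA α β)
    (fun q => ⟨pt q.2 q.1 0, by rw [LA_apply]; simp⟩)
    (by rw [LA_apply]; simp)
    {q | |q.2 - α + q.1| ≤ η / 2 ∧ |q.2 - α - q.1| ≤ l} (para_meas α (η / 2) l) hvol'
  refine ⟨c, ?_, ?_⟩
  · rw [hc]
    ext p
    simp only [Set.mem_ofPred_eq, LA_apply]
    have e1 : p 0 + α * p 2 - α + (p 1 - β * p 2) =
        (p 0 - (1 - p 2) * α) + (p 1 - p 2 * β) := by ring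
    have e2 : p 0 + α * p 2 - α - (p 1 - β * p 2) =
        (p 0 - (1 - p 2) * α) - (p 1 - p 2 * β) := by ring
    rw [e1, e2]
  · rw [hratio tetra]
    have hs := shadowA_ge_all α β
    have h3 := ENNReal.toReal_mono ENNReal.ofReal_ne_top hvol
    rw [ENNReal.toReal_ofReal (by positivity)] at h3
    rw [div_le_iff₀ (by linarith)]
    have h4 : 0 ≤ η * l / 2 := by positivity
    nlinarith

/-- A horizontal slab tube with an arbitrary interval. -/
theorem tubeF2 (h a b w1 w2 : ℝ) (h0 : 0 ≤ h) (h1 : h ≤ 1) (hab : a ≤ b) (hW : w1 ≤ w2) :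
    ∃ c : Cyl, c.toSet = {p | (a ≤ p 2 ∧ p 2 ≤ b) ∧
        (w1 ≤ (1 - h) * p 1 - h * p 0 ∧ (1 - h) * p 1 - h * p 0 ≤ w2)} ∧
      ratio c tetra ≤ (b - a) * (w2 - w1) := by
  have hS : MeasurableSet (Set.Icc a b ×ˢ Set.Icc w1 w2) :=
    measurableSet_Icc.prod measurableSet_Icc
  have hvol : (volume : Measure (ℝ × ℝ)) (Set.Icc a b ×ˢ Set.Icc w1 w2) =
      ENNReal.ofReal ((b - a) * (w2 - w1)) := by
    rw [Measure.volume_eq_prod, Measure.prod_prod, Real.volume_Icc, Real.volume_Icc,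
      ← ENNReal.ofReal_mul (by linarith)]
  obtain ⟨c, hc, hratio⟩ := exists_cyl (pt (1 - h) h 0)
    (fun hh => by
      have e0 := congrArg (fun p : E3 => p 0) hh
      have e1 := congrArg (fun p : E3 => p 1) hh
      simp at e0 e1
      linarith)
    (LF h)
    (fun q => by
      have hD : 0 < h ^ 2 + (1 - h) ^ 2 := by nlinarith [sq_nonneg (h - 1 / 2)]
      refine ⟨pt (-h * (q.2 / (h ^ 2 + (1 - h) ^ 2))) ((1 - h) * (q.2 / (h ^ 2 + (1 - h) ^ 2))) q.1,
        ?_⟩
      rw [LF_apply]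
      simp only [pt_0, pt_1, pt_2]
      ext
      · rfl
      · simp only
        field_simp
        ring)
    (by rw [LF_apply]; simp; ring)
    (Set.Icc a b ×ˢ Set.Icc w1 w2) hS (by rw [hvol]; exact ENNReal.ofReal_lt_top)
  refine ⟨c, ?_, ?_⟩
  · rw [hc]
    ext p
    simp only [Set.mem_ofPred_eq, LF_apply, Set.mem_prod, Set.mem_Icc]
  · rw [hratio tetra, hvol, ENNReal.toReal_ofReal
      (mul_nonneg (sub_nonneg.2 hab) (sub_nonneg.2 hW))]
    have hs := shadowF_ge h h0 h1
    rw [div_le_iff₀ (by linarith)]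
    have h4 : 0 ≤ (b - a) * (w2 - w1) := mul_nonneg (sub_nonneg.2 hab) (sub_nonneg.2 hW)
    nlinarith

end Vale.Agent.P243
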